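import Mathlib

open MeasureTheory Matrix
open scoped ENNReal ComplexOrder

namespace Vale.Agent.P371

/-- `ψ ∈ H¹(ℝ; ℂ^m)` (continuous representative) with derivative `ψ'`. -/
def IsH1 {m : ℕ} (ψ ψ' : ℝ → Fin m → ℂ) : Prop :=
  ∀ i, MemLp (fun x => ψ x i) 2 volume ∧ MemLp (fun x => ψ' x i) 2 volume ∧
    ∀ a b : ℝ, ψ b i - ψ a i = ∫ t in a..b, ψ' t i

/-- `∫ tr (W(x)^p) dx`, powers by functional calculus. -/
noncomputable def trPowInt {m : ℕ} (p : ℝ) (W : ℝ → Matrix (Fin m) (Fin m) ℂ) : ℝ≥0∞ :=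
  ∫⁻ x, ENNReal.ofReal (trace (cfc (fun t : ℝ => t ^ p) (W x))).re

/-- A potential for the exponent `γ`. -/
def IsPotential {m : ℕ} (γ : ℝ) (W : ℝ → Matrix (Fin m) (Fin m) ℂ) : Prop :=
  (∀ i j, Measurable fun x => W x i j) ∧ (∀ x, (W x).PosSemidef) ∧ trPowInt (γ + 1 / 2) W < ∞

/-- `ψ` lies in the operator domain of the form operator `H_W` and `H_W ψ = lam ψ`. -/
def IsEigen {m : ℕ} (W : ℝ → Matrix (Fin m) (Fin m) ℂ) (lam : ℝ) (ψ : ℝ → Fin m → ℂ) : Prop :=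
  ∃ ψ', IsH1 ψ ψ' ∧ ∀ χ χ', IsH1 χ χ' →
    (∫ x, star (χ' x) ⬝ᵥ ψ' x) - (∫ x, star (χ x) ⬝ᵥ (W x *ᵥ ψ x)) =
      (lam : ℂ) * ∫ x, star (χ x) ⬝ᵥ ψ x

/-- `Tr (H_W)_-^γ`: the sum of `|λ|^γ` over the negative eigenvalues with multiplicity, as the
supremum over finite orthonormal families of eigenfunctions with negative eigenvalues. -/
noncomputable def riesz {m : ℕ} (γ : ℝ) (W : ℝ → Matrix (Fin m) (Fin m) ℂ) : ℝ≥0∞ :=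
  ⨆ (N : ℕ) (lam : Fin N → ℝ) (ψ : Fin N → ℝ → Fin m → ℂ)
    (_ : ∀ j, lam j < 0 ∧ IsEigen W (lam j) (ψ j))
    (_ : ∀ j k, ∫ x, star (ψ j x) ⬝ᵥ ψ k x = if j = k then 1 else 0),
    ENNReal.ofReal (∑ j, |lam j| ^ γ)

/-- The Lieb-Thirring constant `L_γ(m)`. -/
noncomputable def LT (γ : ℝ) (m : ℕ) : ℝ≥0∞ :=
  ⨆ (W : ℝ → Matrix (Fin m) (Fin m) ℂ) (_ : IsPotential γ W) (_ : ¬ ∀ᵐ x, W x = 0),
    riesz γ W / trPowInt (γ + 1 / 2) W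

/-- The semiclassical constant. -/
noncomputable def Lcl (γ : ℝ) : ℝ :=
  Real.Gamma (γ + 1) / (2 * √Real.pi * Real.Gamma (γ + 3 / 2))

/-- The one-bound-state constant. -/
noncomputable def Lone (γ : ℝ) : ℝ := 2 * ((γ - 1 / 2) / (γ + 1 / 2)) ^ (γ - 1 / 2) * Lcl γ

end Vale.Agent.P371
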