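import Mathlib

open Real Finset Filter Topology MeasureTheory

namespace Vale.Agent.P371

variable {ι : Type*} [Fintype ι]

def PS (B : ι → ι → ℝ) : Prop := ∀ z : ι → ℝ, 0 ≤ ∑ a, ∑ b, z a * B a b * z b

def SP (k : ι → ι → ℝ) : Prop := ∀ B : ι → ι → ℝ, PS B → PS (fun a b => k a b * B a b)

lemma SP.congr {k l : ι → ι → ℝ} (h : SP k) (e : ∀ a b, k a b = l a b) : SP l := by
  have : k = l := by funext a b; exact e a b
  rwa [← this]

lemma SP.mul {k l : ι → ι → ℝ} (hk : SP k) (hl : SP l) : SP (fun a b => k a b * l a b) := by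
  intro B hB
  have := hk _ (hl B hB)
  simpa [mul_assoc] using this

lemma SP.add {k l : ι → ι → ℝ} (hk : SP k) (hl : SP l) : SP (fun a b => k a b + l a b) := by
  intro B hB z
  have h1 := hk B hB z
  have h2 := hl B hB z
  have : ∑ a, ∑ b, z a * ((k a b + l a b) * B a b) * z b =
      ∑ a, ∑ b, z a * (k a b * B a b) * z b + ∑ a, ∑ b, z a * (l a b * B a b) * z b := by
    rw [← Finset.sum_add_distrib]
    refine Finset.sum_congr rfl fun a _ => ?_
    rw [← Finset.sum_add_distrib]
    refine Finset.sum_congr rfl fun b _ => by ring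
  simp only [this]
  linarith

lemma SP.rank (f : ι → ℝ) : SP (fun a b => f a * f b) := by
  intro B hB z
  have := hB (fun a => z a * f a)
  refine this.trans_eq ?_
  refine Finset.sum_congr rfl fun a _ => Finset.sum_congr rfl fun b _ => by ring

lemma SP.const {c : ℝ} (hc : 0 ≤ c) : SP (fun _ _ : ι => c) :=
  (SP.rank (fun _ : ι => √c)).congr fun _ _ => Real.mul_self_sqrt hc

lemma SP.lim {k : ℕ → ι → ι → ℝ} {l : ι → ι → ℝ} (hk : ∀ n, SP (k n))
    (h : ∀ a b, Tendsto (fun n => k n a b) atTop (𝓝 (l a b))) : SP l := by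
  intro B hB z
  refine ge_of_tendsto' (f := fun n => ∑ a, ∑ b, z a * (k n a b * B a b) * z b)
    (x := atTop) ?_ fun n => hk n B hB z
  refine tendsto_finsetSum _ fun a _ => tendsto_finsetSum _ fun b _ => ?_
  exact (((h a b).mul_const _).const_mul _).mul_const _

lemma SP.prod {α : Type*} (s : Finset α) {k : α → ι → ι → ℝ} (hk : ∀ j ∈ s, SP (k j)) :
    SP (fun a b => ∏ j ∈ s, k j a b) := by
  classical
  induction s using Finset.induction_on with
  | empty => simpa using SP.const (ι := ι) zero_le_one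
  | insert j s hj ih =>
    refine ((hk j (by simp)).mul (ih fun i hi => hk i (by simp [hi]))).congr fun a b => ?_
    rw [Finset.prod_insert hj]

lemma SP.sum {α : Type*} (s : Finset α) {k : α → ι → ι → ℝ} (hk : ∀ j ∈ s, SP (k j)) :
    SP (fun a b => ∑ j ∈ s, k j a b) := by
  classical
  induction s using Finset.induction_on with
  | empty => simpa using SP.const (ι := ι) le_rfl
  | insert j s hj ih =>
    refine ((hk j (by simp)).add (ih fun i hi => hk i (by simp [hi]))).congr fun a b => ?_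
    rw [Finset.sum_insert hj]

lemma SP.integral {k : ℝ → ι → ι → ℝ} {lo hi : ℝ} (hle : lo ≤ hi)
    (hk : ∀ t ∈ Set.Ioo lo hi, SP (k t)) (hc : ∀ a b, Continuous fun t => k t a b) :
    SP (fun a b => ∫ t in lo..hi, k t a b) := by
  intro B hB z
  have : ∑ a, ∑ b, z a * ((∫ t in lo..hi, k t a b) * B a b) * z b =
      ∫ t in lo..hi, ∑ a, ∑ b, z a * (k t a b * B a b) * z b := by
    rw [intervalIntegral.integral_finsetSum]
    · refine Finset.sum_congr rfl fun a _ => ?_
      rw [intervalIntegral.integral_finsetSum]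
      · refine Finset.sum_congr rfl fun b _ => ?_
        rw [intervalIntegral.integral_mul_const, intervalIntegral.integral_const_mul,
          intervalIntegral.integral_mul_const]
      · intro b _
        have := hc a b
        exact Continuous.intervalIntegrable (by fun_prop) _ _
    · intro a _
      refine Continuous.intervalIntegrable (continuous_finsetSum _ fun b _ => ?_) _ _
      have := hc a b
      fun_prop
  simp only [this]
  rw [intervalIntegral.integral_of_le hle, integral_Ioc_eq_integral_Ioo]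
  exact setIntegral_nonneg measurableSet_Ioo fun t ht => hk t ht B hB z

lemma SP.cauchy {α : ι → ℝ} (hα : ∀ a, 0 < α a) : SP (fun a b => 1 / (α a + α b)) := by
  set x : ι → ℝ := fun a => (1 - α a) / (1 + α a)
  have hx : ∀ a, |x a| < 1 := fun a => by
    have := hα a
    rw [abs_div, div_lt_one (by positivity), abs_of_pos (by positivity : 0 < 1 + α a), abs_lt]
    constructor <;> linarith
  have h1 : SP (fun a b => (1 - x a * x b)⁻¹) := by
    refine SP.lim (k := fun n a b => ∑ i ∈ range n, (x a * x b) ^ i) (fun n => ?_) fun a b => ?_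
    · exact SP.sum _ fun i _ => (SP.rank fun a => x a ^ i).congr fun a b => (mul_pow _ _ _).symm
    · refine (hasSum_geometric_of_abs_lt_one ?_).tendsto_sum_nat
      rw [abs_mul]
      exact mul_lt_one_of_nonneg_of_lt_one_left (abs_nonneg _) (hx a) (hx b).le
  refine ((h1.mul (SP.rank fun a => 1 / (1 + α a))).mul (SP.const (c := 2) (by norm_num))).congr
    fun a b => ?_
  have ha := hα a
  have hb := hα b
  have : 1 - x a * x b = 2 * (α a + α b) / ((1 + α a) * (1 + α b)) := by
    simp only [x]; field_simp; ring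
  rw [this]; field_simp

lemma SP.sinRatio {θ : ι → ℝ} (hθ : ∀ a, θ a ∈ Set.Ioo 0 π) {t : ℝ} (ht0 : 0 ≤ t) (ht1 : t ≤ 1) :
    SP (fun a b => sin (t * ((θ a + θ b) / 2)) / sin ((θ a + θ b) / 2)) := by
  set x : ι → ℝ := fun a => θ a / π
  have hx0 : ∀ a, 0 < x a := fun a => div_pos (hθ a).1 pi_pos
  have hx1 : ∀ a, x a < 1 := fun a => (div_lt_one pi_pos).2 (hθ a).2
  refine SP.lim (k := fun n a b => t * ∏ j ∈ range n,
    (t ^ 2 + (1 - t ^ 2) * ((1 / ((1 / 2 - x a / (2 * ((j : ℝ) + 1))) +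
      (1 / 2 - x b / (2 * ((j : ℝ) + 1))))) * (1 / ((1 / 2 + x a / (2 * ((j : ℝ) + 1))) +
      (1 / 2 + x b / (2 * ((j : ℝ) + 1)))))))) (fun n => ?_) fun a b => ?_
  · refine (SP.const ht0).mul (SP.prod _ fun j _ => (SP.const (sq_nonneg t)).add
      ((SP.const (by nlinarith)).mul ((SP.cauchy fun a => ?_).mul (SP.cauchy fun a => ?_))))
    · have := hx1 a
      have hj : (0 : ℝ) ≤ j := Nat.cast_nonneg j
      rw [sub_pos, div_lt_div_iff₀ (by positivity) (by positivity)]
      nlinarith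
    · have := hx0 a
      positivity
  · set y := (x a + x b) / 2 with hy
    have hy0 : 0 < y := by have := hx0 a; have := hx0 b; positivity
    have hy1 : y < 1 := by have := hx1 a; have := hx1 b; simp only [hy]; linarith
    have hπ : (θ a + θ b) / 2 = π * y := by simp only [hy, x]; field_simp
    have hs : sin (π * y) ≠ 0 :=
      (sin_pos_of_pos_of_lt_pi (by positivity) (by nlinarith [pi_pos])).ne'
    have := (Real.tendsto_euler_sin_prod (t * y)).div (Real.tendsto_euler_sin_prod y) hs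
    rw [hπ, show t * (π * y) = π * (t * y) by ring]
    refine this.congr fun n => ?_
    simp only [Pi.div_apply]
    rw [mul_div_mul_comm, ← Finset.prod_div_distrib]
    congr 1
    · field_simp
    · refine Finset.prod_congr rfl fun j _ => ?_
      have hj : (0 : ℝ) ≤ j := Nat.cast_nonneg j
      have e1 : (1 / 2 - x a / (2 * ((j : ℝ) + 1))) + (1 / 2 - x b / (2 * ((j : ℝ) + 1))) =
        ((j : ℝ) + 1 - y) / ((j : ℝ) + 1) := by simp only [hy]; field_simp; ring
      have e2 : (1 / 2 + x a / (2 * ((j : ℝ) + 1))) + (1 / 2 + x b / (2 * ((j : ℝ) + 1))) =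
        ((j : ℝ) + 1 + y) / ((j : ℝ) + 1) := by simp only [hy]; field_simp; ring
      have e3 : 1 - y ^ 2 / ((j : ℝ) + 1) ^ 2 =
        ((j : ℝ) + 1 - y) * ((j : ℝ) + 1 + y) / ((j : ℝ) + 1) ^ 2 := by field_simp; ring
      have h3 : (j : ℝ) + 1 - y ≠ 0 := by linarith
      have h4 : (j : ℝ) + 1 + y ≠ 0 := by linarith
      rw [e1, e2, e3]
      field_simp
      ring

lemma SP.sinShift {θ : ι → ℝ} (hθ : ∀ a, θ a ∈ Set.Ioo 0 π) {t c : ℝ} (ht : t ∈ Set.Ioo (0 : ℝ) 1)
    (hc : c ∈ Set.Ioo 0 π) :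
    SP (fun a b => sin (c + t * ((θ a + θ b) / 2 - c)) / sin ((θ a + θ b) / 2)) := by
  obtain ⟨ht0, ht1⟩ := ht
  obtain ⟨hc0, hc1⟩ := hc
  have hst : 0 < sin (t * π) := sin_pos_of_pos_of_lt_pi (by positivity) (by nlinarith [pi_pos])
  have hd1 : 0 ≤ sin ((1 - t) * c) :=
    sin_nonneg_of_nonneg_of_le_pi (by nlinarith) (by nlinarith)
  have hd2 : 0 ≤ sin ((1 - t) * c + t * π) :=
    sin_nonneg_of_nonneg_of_le_pi (by nlinarith [pi_pos]) (by nlinarith)
  have h1 := SP.sinRatio hθ ht0.le ht1.le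
  have h2 := SP.sinRatio (θ := fun a => π - θ a)
    (fun a => ⟨by linarith [(hθ a).2], by linarith [(hθ a).1]⟩) ht0.le ht1.le
  refine (((SP.const (div_nonneg hd1 hst.le)).mul h2).add
    ((SP.const (div_nonneg hd2 hst.le)).mul h1)).congr fun a b => ?_
  set σ := (θ a + θ b) / 2
  have e : (π - θ a + (π - θ b)) / 2 = π - σ := by simp only [σ]; ring
  rw [e, sin_pi_sub, show t * (π - σ) = t * π - t * σ by ring,
    show c + t * (σ - c) = (1 - t) * c + t * σ by ring, sin_sub, sin_add, sin_add]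
  field_simp
  ring

/-- `Sd δ t = sin (t δ) / δ`. -/
noncomputable def Sd (δ t : ℝ) : ℝ := ∫ s in (0 : ℝ)..t, cos (s * δ)

lemma Sd_deriv (δ t : ℝ) : HasDerivAt (Sd δ) (cos (t * δ)) t :=
  (Continuous.integral_hasStrictDerivAt (f := fun s => cos (s * δ)) (by fun_prop) 0 t).hasDerivAt

lemma Sd_cont (δ : ℝ) : Continuous (Sd δ) :=
  continuous_iff_continuousAt.2 fun t => (Sd_deriv δ t).continuousAt

lemma Sd_mul (δ t : ℝ) : Sd δ t * δ = sin (t * δ) := by
  have : ∫ s in (0 : ℝ)..t, cos (s * δ) * δ = sin (t * δ) - sin (0 * δ) :=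
    intervalIntegral.integral_eq_sub_of_hasDerivAt (f := fun s => sin (s * δ))
      (fun s _ => (((hasDerivAt_id s).mul_const δ).sin).congr_deriv (by simp))
      (Continuous.intervalIntegrable (by fun_prop) _ _)
  rw [intervalIntegral.integral_mul_const] at this
  simpa [Sd] using this

lemma Sd_zero (t : ℝ) : Sd 0 t = t := by simp [Sd]

lemma Sd_neg (δ t : ℝ) : Sd (-δ) t = Sd δ t := by simp [Sd]

lemma SP.Sd (θ : ι → ℝ) {t : ℝ} (ht : 0 ≤ t) : SP (fun a b => Sd ((θ a - θ b) / 2) t) := by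
  refine SP.integral (k := fun s a b => cos (s * ((θ a - θ b) / 2))) ht (fun s _ => ?_)
    fun a b => by fun_prop
  refine ((SP.rank fun a => cos (s * θ a / 2)).add (SP.rank fun a => sin (s * θ a / 2))).congr
    fun a b => ?_
  rw [← cos_sub]; congr 1; ring

lemma int_sin (c α : ℝ) : ∫ t in (0 : ℝ)..1, sin (c + t * α) = Sd (α / 2) 1 * sin (c + α / 2) := by
  rcases eq_or_ne α 0 with rfl | hα
  · simp [Sd_zero]
  · have h : ∫ t in (0 : ℝ)..1, sin (c + t * α) = -cos (c + 1 * α) / α - -cos (c + 0 * α) / α := by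
      refine intervalIntegral.integral_eq_sub_of_hasDerivAt (f := fun t => -cos (c + t * α) / α)
        (fun t _ => ?_) (Continuous.intervalIntegrable (by fun_prop) _ _)
      have := (((hasDerivAt_cos (c + t * α)).comp t
        (((hasDerivAt_id t).mul_const α).const_add c)).neg).div_const α
      refine this.congr_deriv ?_
      field_simp
    have h2 := Sd_mul (α / 2) 1
    have h3 : Sd (α / 2) 1 = 2 * sin (α / 2) / α := by
      rw [one_mul] at h2; rw [← h2]; field_simp
    rw [h, h3, one_mul, zero_mul, add_zero]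
    have e1 : cos (c + α) = cos ((c + α / 2) + α / 2) := by congr 1; ring
    have e2 : cos c = cos ((c + α / 2) - α / 2) := by congr 1; ring
    rw [e1, e2, cos_add (c + α / 2), cos_sub]
    field_simp
    ring

noncomputable def Lk (a b : ℝ) : ℝ := Sd ((a - b) / 2) 1 * sin ((a + b) / 2)

lemma Lk_symm (a b : ℝ) : Lk a b = Lk b a := by
  unfold Lk
  rw [show (b - a) / 2 = -((a - b) / 2) by ring, Sd_neg, add_comm]

lemma key_id (a b c : ℝ) : Lk a c + Lk b c - Lk a b - sin c =
    (a - c) * (b - c) * ∫ t in (0 : ℝ)..1,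
      (1 - t) * (Sd ((a - b) / 2) t * sin (c + t * ((a + b) / 2 - c))) := by
  set δ := (a - b) / 2 with hδ
  set m := (a + b) / 2 - c with hm
  have hsn : ∀ t, HasDerivAt (fun t => sin (c + t * m)) (cos (c + t * m) * m) t := fun t =>
    ((((hasDerivAt_id t).mul_const m).const_add c).sin).congr_deriv (by simp)
  have hcs : ∀ t, HasDerivAt (fun t => cos (c + t * m)) (-sin (c + t * m) * m) t := fun t =>
    ((((hasDerivAt_id t).mul_const m).const_add c).cos).congr_deriv (by simp)
  have hC : ∀ t, HasDerivAt (fun t => cos (t * δ)) (-sin (t * δ) * δ) t := fun t =>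
    (((hasDerivAt_id t).mul_const δ).cos).congr_deriv (by simp)
  have hcont := Sd_cont δ
  have hF : ∫ t in (0 : ℝ)..1, ((a - c) * (b - c) * ((1 - t) * (Sd δ t * sin (c + t * m))) -
      (sin (c + t * (a - c)) + sin (c + t * (b - c)))) =
      ((1 - 1) * (cos (1 * δ) * sin (c + 1 * m) - m * (Sd δ 1 * cos (c + 1 * m))) -
        Sd δ 1 * sin (c + 1 * m)) -
      ((1 - 0) * (cos (0 * δ) * sin (c + 0 * m) - m * (Sd δ 0 * cos (c + 0 * m))) -
        Sd δ 0 * sin (c + 0 * m)) := by
    refine intervalIntegral.integral_eq_sub_of_hasDerivAt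
      (f := fun t => (1 - t) * (cos (t * δ) * sin (c + t * m) - m * (Sd δ t * cos (c + t * m))) -
        Sd δ t * sin (c + t * m)) (fun t _ => ?_) (Continuous.intervalIntegrable (by fun_prop) _ _)
    have := (((hasDerivAt_id t).const_sub 1).mul (((hC t).mul (hsn t)).sub
      (((Sd_deriv δ t).mul (hcs t)).const_mul m))).sub ((Sd_deriv δ t).mul (hsn t))
    refine this.congr_deriv ?_
    have e1 : c + t * (a - c) = (c + t * m) + t * δ := by simp only [hm, hδ]; ring
    have e2 : c + t * (b - c) = (c + t * m) - t * δ := by simp only [hm, hδ]; ring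
    have e3 : (a - c) * (b - c) = m ^ 2 - δ ^ 2 := by simp only [hm, hδ]; ring
    rw [e1, e2, e3, sin_add (c + t * m), sin_sub, ← Sd_mul δ t]
    simp only [id, Pi.mul_apply, Pi.sub_apply]
    ring
  rw [intervalIntegral.integral_sub (Continuous.intervalIntegrable (by fun_prop) _ _)
    (Continuous.intervalIntegrable (by fun_prop) _ _),
    intervalIntegral.integral_add (Continuous.intervalIntegrable (by fun_prop) _ _)
    (Continuous.intervalIntegrable (by fun_prop) _ _), int_sin, int_sin,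
    intervalIntegral.integral_const_mul] at hF
  have s0 : Sd δ 0 = 0 := by simp [Sd]
  simp only [s0, one_mul, zero_mul, add_zero, cos_zero, sub_self, mul_zero, sub_zero] at hF
  unfold Lk
  rw [show (a + c) / 2 = c + (a - c) / 2 by ring, show (b + c) / 2 = c + (b - c) / 2 by ring,
    show (a + b) / 2 = c + m by simp only [hm]; ring, ← hδ]
  linarith

/-- divided difference of the cotangent -/
noncomputable def Dq (s t : ℝ) : ℝ := ∫ u in (0 : ℝ)..1, -1 / sin (t + u * (s - t)) ^ 2

lemma Dq_eq {s t : ℝ} (hs : s ∈ Set.Ioo 0 π) (ht : t ∈ Set.Ioo 0 π) :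
    Dq s t = -(Sd (s - t) 1 / (sin s * sin t)) := by
  have hss := (sin_pos_of_pos_of_lt_pi hs.1 hs.2).ne'
  have hst := (sin_pos_of_pos_of_lt_pi ht.1 ht.2).ne'
  rcases eq_or_ne s t with rfl | hne
  · simp [Dq, Sd_zero]; field_simp
  · have hd : s - t ≠ 0 := sub_ne_zero.2 hne
    have hpos : ∀ u ∈ Set.uIcc (0 : ℝ) 1, sin (t + u * (s - t)) ≠ 0 := fun u hu => by
      rw [Set.uIcc_of_le zero_le_one] at hu
      refine (sin_pos_of_pos_of_lt_pi ?_ ?_).ne'
      · nlinarith [hu.1, hu.2, hs.1, ht.1, mul_nonneg hu.1 hs.1.le,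
          mul_nonneg (sub_nonneg.2 hu.2) ht.1.le]
      · rcases le_total s t with h | h <;> nlinarith [hu.1, hu.2, hs.2, ht.2]
    have h : Dq s t = cos (t + 1 * (s - t)) / sin (t + 1 * (s - t)) / (s - t) -
        cos (t + 0 * (s - t)) / sin (t + 0 * (s - t)) / (s - t) := by
      refine intervalIntegral.integral_eq_sub_of_hasDerivAt
        (f := fun u => cos (t + u * (s - t)) / sin (t + u * (s - t)) / (s - t)) (fun u hu => ?_)
        (ContinuousOn.intervalIntegrable (ContinuousOn.div (by fun_prop) (by fun_prop)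
          fun u hu => pow_ne_zero _ (hpos u hu)))
      have h0 := ((hasDerivAt_id u).mul_const (s - t)).const_add t
      have := ((((hasDerivAt_cos _).comp u h0).div ((hasDerivAt_sin _).comp u h0)
        (hpos u hu)).div_const (s - t))
      refine this.congr_deriv ?_
      have h1 := hpos u hu
      simp only [Function.comp, id] at h1 ⊢
      have h2 := sin_sq_add_cos_sq (t + u * (s - t))
      field_simp
      linarith
    have h2 := Sd_mul (s - t) 1
    have h3 : Sd (s - t) 1 = sin (s - t) / (s - t) := by rw [one_mul] at h2; rw [← h2]; field_simp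
    rw [h, h3, sin_sub]
    simp only [one_mul, zero_mul, add_zero, add_sub_cancel]
    field_simp
    ring

lemma sum_cyc (f : ι → ι → ι → ℝ) : ∑ a, ∑ b, ∑ c, f a b c = ∑ a, ∑ b, ∑ c, f b c a := by
  have h1 : ∑ a, ∑ b, ∑ c, f b c a = ∑ b, ∑ a, ∑ c, f b c a := Finset.sum_comm
  rw [h1]
  exact Finset.sum_congr rfl fun b _ => Finset.sum_comm

theorem cubic_nonpos {θ : ι → ℝ} (hθ : ∀ a, θ a ∈ Set.Ioo 0 π) {B : ι → ι → ℝ}
    (hB : PS B) (hs : ∀ a b, B a b = B b a) :
    ∑ a, ∑ b, ∑ c, (cos ((θ a + θ c) / 2) / sin ((θ a + θ c) / 2) *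
      (cos ((θ b + θ c) / 2) / sin ((θ b + θ c) / 2)) +
      Dq ((θ a + θ c) / 2) ((θ b + θ c) / 2) + 1) * (B a b * B b c * B c a) ≤ 0 := by
  have hσ : ∀ a b, (θ a + θ b) / 2 ∈ Set.Ioo 0 π := fun a b =>
    ⟨by linarith [(hθ a).1, (hθ b).1], by linarith [(hθ a).2, (hθ b).2]⟩
  set s : ι → ι → ℝ := fun a b => sin ((θ a + θ b) / 2) with hsdef
  have hs0 : ∀ a b, s a b ≠ 0 := fun a b => (sin_pos_of_pos_of_lt_pi (hσ a b).1 (hσ a b).2).ne'
  have hss : ∀ a b, s a b = s b a := fun a b => by simp only [s, add_comm]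
  set w : ι → ι → ι → ℝ := fun a b c => B a b * B b c * B c a / (s a b * s b c * s c a) with hw
  have hwc : ∀ a b c, w b c a = w a b c := fun a b c => by simp only [w]; ring
  have h1 : ∀ a b c, (cos ((θ a + θ c) / 2) / sin ((θ a + θ c) / 2) *
      (cos ((θ b + θ c) / 2) / sin ((θ b + θ c) / 2)) +
      Dq ((θ a + θ c) / 2) ((θ b + θ c) / 2) + 1) * (B a b * B b c * B c a) =
      (sin (θ a) * w a b c) / 2 + (sin (θ b) * w a b c) / 2 - Lk (θ a) (θ b) * w a b c := by
    intro a b c
    rw [Dq_eq (hσ a c) (hσ b c), show (θ a + θ c) / 2 - (θ b + θ c) / 2 = (θ a - θ b) / 2 by ring]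
    have e1 : sin (θ a) + sin (θ b) = 2 * s a b * (cos ((θ a + θ c) / 2) * cos ((θ b + θ c) / 2)
        + s a c * s b c) := by
      simp only [s]
      rw [← cos_sub, show (θ a + θ c) / 2 - (θ b + θ c) / 2 = (θ a - θ b) / 2 by ring,
        sin_add_sin]
    have e2 : sin (θ a) * w a b c / 2 + sin (θ b) * w a b c / 2 =
      (sin (θ a) + sin (θ b)) * w a b c / 2 := by ring
    rw [e2, e1]
    have := hs0 a b; have := hs0 b c; have := hs0 a c
    simp only [w, Lk, hss c a]
    change (_ / s a c * (_ / s b c) + -(_ / (s a c * s b c)) + 1) * _ = _ - _ * s a b * _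
    field_simp
    ring
  simp only [h1]
  have hA : ∑ a, ∑ b, ∑ c, sin (θ a) * w a b c = ∑ a, ∑ b, ∑ c, sin (θ c) * w a b c := by
    rw [sum_cyc, sum_cyc]; simp only [hwc]
  have hB' : ∑ a, ∑ b, ∑ c, sin (θ b) * w a b c = ∑ a, ∑ b, ∑ c, sin (θ c) * w a b c := by
    rw [sum_cyc]; simp only [hwc]
  have hL1 : ∑ a, ∑ b, ∑ c, Lk (θ a) (θ b) * w a b c =
      ∑ a, ∑ b, ∑ c, Lk (θ b) (θ c) * w a b c := by
    rw [sum_cyc]; simp only [hwc]
  have hL2 : ∑ a, ∑ b, ∑ c, Lk (θ a) (θ b) * w a b c =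
      ∑ a, ∑ b, ∑ c, Lk (θ a) (θ c) * w a b c := by
    rw [sum_cyc, sum_cyc]; simp only [hwc, Lk_symm (θ _) (θ _)]
  have hpos : 0 ≤ ∑ a, ∑ b, ∑ c,
      (Lk (θ a) (θ c) + Lk (θ b) (θ c) - Lk (θ a) (θ b) - sin (θ c)) * w a b c := by
    rw [sum_cyc]
    refine Finset.sum_nonneg fun c _ => ?_
    have hk : SP (fun a b => ∫ t in (0 : ℝ)..1, (1 - t) * (Sd ((θ a - θ b) / 2) t *
        (sin (θ c + t * ((θ a + θ b) / 2 - θ c)) / sin ((θ a + θ b) / 2)))) := by
      refine SP.integral zero_le_one (fun t ht => (SP.const (by linarith [ht.2])).mul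
        ((SP.Sd θ ht.1.le).mul (SP.sinShift hθ ht (hθ c)))) fun a b => ?_
      have := Sd_cont ((θ a - θ b) / 2)
      fun_prop
    refine (hk B hB (fun a => (θ a - θ c) * B a c / s a c)).trans_eq ?_
    refine Finset.sum_congr rfl fun a _ => Finset.sum_congr rfl fun b _ => ?_
    rw [key_id]
    simp only [← mul_div_assoc, intervalIntegral.integral_div, w, hss c a, hs c a]
    have := hs0 a b; have := hs0 b c; have := hs0 a c
    change _ * (_ / s a b * _) * _ / _ = _
    generalize (∫ (x : ℝ) in (0 : ℝ)..1, (1 - x) * (Sd ((θ a - θ b) / 2) x *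
      sin (θ c + x * ((θ a + θ b) / 2 - θ c)))) = I
    field_simp
  simp only [add_mul, sub_mul, Finset.sum_add_distrib, Finset.sum_sub_distrib, ← Finset.sum_div]
    at hpos ⊢
  linarith

end Vale.Agent.P371
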