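import Vale.Agent.P371.Point

open Real Finset Filter Topology MeasureTheory Matrix

namespace Vale.Agent.P371

/-- `f` is a primitive of the locally integrable function `f'`. -/
def FT (f f' : ℝ → ℝ) : Prop :=
  (∀ a b, IntervalIntegrable f' volume a b) ∧ ∀ a b, f b - f a = ∫ t in a..b, f' t

namespace FT

variable {f f' g g' : ℝ → ℝ}

lemma eq (h : FT f f') : f = fun x => f 0 + ∫ t in (0 : ℝ)..x, f' t := by
  funext x; rw [← h.2 0 x]; ring

lemma ac (h : FT f f') (a b : ℝ) : AbsolutelyContinuousOnInterval f a b := by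
  have e : f = (fun _ => f a) + fun x => ∫ t in a..x, f' t := by
    funext x; simp only [Pi.add_apply]; rw [← h.2 a x]; ring
  rw [e]
  exact (contDiffOn_const.absolutelyContinuousOnInterval).add
    ((h.1 a b).absolutelyContinuousOnInterval_intervalIntegral (by simp))

lemma ae (h : FT f f') : ∀ᵐ x, HasDerivAt f (f' x) x := by
  have hl : LocallyIntegrable f' volume := by
    rw [locallyIntegrable_iff]
    intro k hk
    obtain ⟨r, hr⟩ := hk.isBounded.subset_closedBall 0
    rw [Real.closedBall_eq_Icc] at hr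
    rcases le_total (0 - r) (0 + r) with h1 | h1
    · exact ((intervalIntegrable_iff_integrableOn_Icc_of_le h1).1 (h.1 _ _)).mono_set hr
    · exact ((intervalIntegrable_iff_integrableOn_Icc_of_le h1).1 (h.1 _ _)).mono_set
        (fun x hx => ⟨by linarith [(hr hx).1], by linarith [(hr hx).2]⟩)
  filter_upwards [_root_.LocallyIntegrable.ae_hasDerivAt_integral hl] with x hx
  rw [h.eq]
  exact (hx 0).const_add _

lemma cont (h : FT f f') : Continuous f := by
  rw [h.eq]
  exact continuous_const.add (intervalIntegral.continuous_primitive h.1 0)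

lemma of_ac (h : ∀ a b, AbsolutelyContinuousOnInterval f a b)
    (hd : ∀ᵐ x, HasDerivAt f (f' x) x) : FT f f' := by
  have e : deriv f =ᵐ[volume] f' := by
    filter_upwards [hd] with x hx using hx.deriv
  refine ⟨fun a b => (h a b).intervalIntegrable_deriv.congr_ae (ae_restrict_of_ae e),
    fun a b => ?_⟩
  rw [← (h a b).integral_deriv_eq_sub]
  refine intervalIntegral.integral_congr_ae ?_
  filter_upwards [e] with x hx _ using hx

lemma mul (hf : FT f f') (hg : FT g g') :
    FT (fun x => f x * g x) (fun x => f' x * g x + f x * g' x) :=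
  of_ac (fun a b => (hf.ac a b).fun_mul (hg.ac a b)) (by
    filter_upwards [hf.ae, hg.ae] with x h1 h2 using h1.mul h2)

lemma add (hf : FT f f') (hg : FT g g') : FT (fun x => f x + g x) (fun x => f' x + g' x) :=
  ⟨fun a b => (hf.1 a b).add (hg.1 a b), fun a b => by
    rw [intervalIntegral.integral_add (hf.1 a b) (hg.1 a b), ← hf.2, ← hg.2]; ring⟩

lemma const (c : ℝ) : FT (fun _ => c) (fun _ => 0) :=
  ⟨fun _ _ => intervalIntegrable_const, fun a b => by simp⟩

lemma cmul (c : ℝ) (hf : FT f f') : FT (fun x => c * f x) (fun x => c * f' x) :=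
  ⟨fun a b => (hf.1 a b).const_mul c, fun a b => by
    rw [intervalIntegral.integral_const_mul, ← hf.2]; ring⟩

lemma sum {α : Type*} (s : Finset α) {F F' : α → ℝ → ℝ} (h : ∀ i ∈ s, FT (F i) (F' i)) :
    FT (fun x => ∑ i ∈ s, F i x) (fun x => ∑ i ∈ s, F' i x) := by
  classical
  induction s using Finset.induction_on with
  | empty => simpa using const 0
  | insert i s hi ih =>
    simp only [Finset.sum_insert hi]
    exact (h i (mem_insert_self _ _)).add (ih fun j hj => h j (mem_insert_of_mem hj))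

lemma congr (hf : FT f f') (e : ∀ x, f x = g x) (e' : ∀ x, f' x = g' x) : FT g g' := by
  rw [← funext e, ← funext e']; exact hf

lemma lim (h : FT f f') (hi : Integrable f') :
    (∃ l, Tendsto f atTop (𝓝 l)) ∧ ∃ l, Tendsto f atBot (𝓝 l) := by
  constructor
  · rw [h.eq]
    exact ⟨_, (intervalIntegral_tendsto_integral_Ioi 0 hi.integrableOn tendsto_id).const_add _⟩
  · have e : f = fun x => f 0 - ∫ t in x..(0 : ℝ), f' t := by
      funext x; rw [← h.2 x 0]; ring
    rw [e]
    exact ⟨_, (intervalIntegral_tendsto_integral_Iic 0 hi.integrableOn tendsto_id).const_sub _⟩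

lemma lim_zero (h : FT f f') (hi : Integrable f') (hf : Integrable f) :
    Tendsto f atTop (𝓝 0) ∧ Tendsto f atBot (𝓝 0) := by
  obtain ⟨⟨l, hl⟩, ⟨m, hm⟩⟩ := h.lim hi
  have h1 : l = 0 := IntegrableAtFilter.eq_zero_of_tendsto (hf.integrableAtFilter _)
    (fun s hs => by
      rcases mem_atTop_sets.1 hs with ⟨b, hb⟩
      rw [← top_le_iff, ← volume_Ici (a := b)]
      exact measure_mono hb) hl
  have h2 : m = 0 := IntegrableAtFilter.eq_zero_of_tendsto (hf.integrableAtFilter _)
    (fun s hs => by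
      rcases mem_atBot_sets.1 hs with ⟨b, hb⟩
      rw [← top_le_iff, ← volume_Iic (a := b)]
      exact measure_mono hb) hm
  exact ⟨h1 ▸ hl, h2 ▸ hm⟩

lemma bdd (h : FT f f') (hi : Integrable f') (x : ℝ) : |f x| ≤ |f 0| + ∫ t, |f' t| := by
  have e : f x = f 0 + ∫ t in (0 : ℝ)..x, f' t := congrFun h.eq x
  rw [e]
  refine (abs_add_le _ _).trans (add_le_add le_rfl ?_)
  have := intervalIntegral.norm_integral_le_integral_norm_uIoc (f := f') (a := 0) (b := x)
    (μ := volume)
  exact this.trans (setIntegral_le_integral hi.abs (Eventually.of_forall fun t => abs_nonneg _))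

lemma nonneg {R : ℝ → ℝ} (h : FT f f') (hR : Integrable R) (hle : ∀ x, f' x ≤ R x)
    (h1 : Tendsto f atTop (𝓝 0)) (h2 : Tendsto f atBot (𝓝 0)) : 0 ≤ ∫ x, R x := by
  have t1 := h1.sub (h2.comp tendsto_neg_atTop_atBot)
  rw [sub_zero] at t1
  refine le_of_tendsto_of_tendsto t1
    (intervalIntegral_tendsto_integral hR tendsto_neg_atTop_atBot tendsto_id) ?_
  filter_upwards [eventually_ge_atTop (0 : ℝ)] with y hy
  simp only [Function.comp, id]
  rw [h.2]
  exact intervalIntegral.integral_mono_on (by linarith) (h.1 _ _) hR.intervalIntegrable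
    fun x _ => hle x

end FT

/-- integrable, continuous and bounded -/
def IB (f : ℝ → ℝ) : Prop := Integrable f ∧ Continuous f ∧ ∃ C, ∀ x, |f x| ≤ C

lemma IB.mul {f g : ℝ → ℝ} (hf : IB f) (hg : IB g) : IB fun x => f x * g x := by
  obtain ⟨C, hC⟩ := hf.2.2
  obtain ⟨D, hD⟩ := hg.2.2
  refine ⟨hg.1.bdd_mul (c := C) hf.1.1 (Eventually.of_forall hC), hf.2.1.mul hg.2.1, C * D,
    fun x => ?_⟩
  rw [abs_mul]
  exact mul_le_mul (hC x) (hD x) (abs_nonneg _) ((abs_nonneg _).trans (hC x))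

lemma IB.sum {α : Type*} (s : Finset α) {F : α → ℝ → ℝ} (h : ∀ i, IB (F i)) :
    IB fun x => ∑ i ∈ s, F i x := by
  choose C hC using fun i => (h i).2.2
  exact ⟨integrable_finsetSum _ fun i _ => (h i).1, continuous_finsetSum _ fun i _ => (h i).2.1,
    ∑ i ∈ s, C i, fun x => (Finset.abs_sum_le_sum_abs _ _).trans
      (Finset.sum_le_sum fun i _ => hC i x)⟩

/-- real `H¹` functions -/
def H1 (f f' : ℝ → ℝ) : Prop :=
  MemLp f 2 volume ∧ MemLp f' 2 volume ∧ ∀ a b, f b - f a = ∫ t in a..b, f' t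

lemma H1.ft {f f' : ℝ → ℝ} (h : H1 f f') : FT f f' :=
  ⟨fun _ _ => intervalIntegrable_iff.2
    (((h.2.1.locallyIntegrable one_le_two).integrableOn_isCompact isCompact_uIcc).mono_set
      Set.uIoc_subset_uIcc), h.2.2⟩

lemma H1.mul_int {f f' g g' : ℝ → ℝ} (hf : H1 f f') (hg : H1 g g') :
    Integrable fun x => f' x * g x + f x * g' x :=
  (hf.2.1.integrable_mul hg.1).add (hf.1.integrable_mul hg.2.1)

lemma H1.ib {f f' g g' : ℝ → ℝ} (hf : H1 f f') (hg : H1 g g') : IB fun x => f x * g x :=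
  ⟨hf.1.integrable_mul hg.1, hf.ft.cont.mul hg.ft.cont, _,
    (hf.ft.mul hg.ft).bdd (hf.mul_int hg)⟩

lemma H1.lim {f f' g g' : ℝ → ℝ} (hf : H1 f f') (hg : H1 g g') :
    Tendsto (fun x => f x * g x) atTop (𝓝 0) ∧ Tendsto (fun x => f x * g x) atBot (𝓝 0) :=
  (hf.ft.mul hg.ft).lim_zero (hf.mul_int hg) (hf.ib hg).1

section
variable {ι κ μ : Type*}

def MFT (F F' : ℝ → Matrix ι κ ℝ) : Prop := ∀ a b, FT (fun x => F x a b) (fun x => F' x a b)

lemma MFT.mul [Fintype κ] {F F' : ℝ → Matrix ι κ ℝ} {G G' : ℝ → Matrix κ μ ℝ} (hF : MFT F F')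
    (hG : MFT G G') : MFT (fun x => F x * G x) (fun x => F' x * G x + F x * G' x) := fun a b =>
  (FT.sum univ fun i _ => (hF a i).mul (hG i b)).congr (fun x => by simp [Matrix.mul_apply])
    (fun x => by simp [Matrix.mul_apply, Finset.sum_add_distrib])

lemma MFT.add {F F' G G' : ℝ → Matrix ι κ ℝ} (hF : MFT F F') (hG : MFT G G') :
    MFT (fun x => F x + G x) (fun x => F' x + G' x) := fun a b => (hF a b).add (hG a b)

lemma MFT.smul {F F' : ℝ → Matrix ι κ ℝ} (c : ℝ) (hF : MFT F F') :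
    MFT (fun x => c • F x) (fun x => c • F' x) := fun a b => (hF a b).cmul c

lemma MFT.trace [Fintype ι] {F F' : ℝ → Matrix ι ι ℝ} (hF : MFT F F') :
    FT (fun x => trace (F x)) (fun x => trace (F' x)) := FT.sum univ fun i _ => hF i i

end

variable {ι κ : Type*} [Fintype ι] [DecidableEq ι] [Fintype κ]

omit [DecidableEq ι] in
lemma MFT.yk {Θ Θ' B B' : ℝ → Matrix ι ι ℝ} (hΘ : MFT Θ Θ') (hB : MFT B B') (k : ℕ) :
    MFT (fun x => Yk (Θ x) (B x) k) (fun x => Dk (Θ x) (B x) (Θ' x) (B' x) k) := by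
  induction k with
  | zero => exact hB
  | succ k ih =>
    have := ((hΘ.mul ih).add (ih.mul hΘ)).smul (1 / 2)
    intro a b
    refine (this a b).congr (fun x => rfl) fun x => ?_
    simp only [Dk, Lop, Matrix.smul_apply, Matrix.add_apply, smul_eq_mul]
    ring

omit [DecidableEq ι] in
lemma MFT.sfun {Θ Θ' B B' : ℝ → Matrix ι ι ℝ} (hΘ : MFT Θ Θ') (hB : MFT B B') (n : ℕ)
    (c : ℕ → ℝ) : FT (fun x => Sfun n c (Θ x) (B x))
      (fun x => dS n c (Θ x) (B x) (Θ' x) (B' x)) :=
  FT.sum _ fun k _ => ((hB.mul (hΘ.yk hB k)).trace.cmul (c k)).congr (fun _ => rfl)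
    fun x => by rw [trace_add]

omit [DecidableEq ι] in
lemma Yk_tendsto {l : Filter ℝ} {Θ B : ℝ → Matrix ι ι ℝ} {Θ₀ B₀ : Matrix ι ι ℝ}
    (hΘ : Tendsto Θ l (𝓝 Θ₀)) (hB : Tendsto B l (𝓝 B₀)) (k : ℕ) :
    Tendsto (fun x => Yk (Θ x) (B x) k) l (𝓝 (Yk Θ₀ B₀ k)) := by
  induction k with
  | zero => exact hB
  | succ k ih => exact ((hΘ.mul ih).add (ih.mul hΘ)).const_smul _

omit [DecidableEq ι] in
lemma Sfun_tendsto {l : Filter ℝ} {Θ B : ℝ → Matrix ι ι ℝ} {Θ₀ : Matrix ι ι ℝ}
    (hΘ : Tendsto Θ l (𝓝 Θ₀)) (hB : Tendsto B l (𝓝 0)) (n : ℕ) (c : ℕ → ℝ) :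
    Tendsto (fun x => Sfun n c (Θ x) (B x)) l (𝓝 0) := by
  have : Tendsto (fun x => Sfun n c (Θ x) (B x)) l (𝓝 (Sfun n c Θ₀ 0)) :=
    tendsto_finsetSum _ fun k _ => (((continuous_id.matrix_trace).tendsto _).comp
      (hB.mul (Yk_tendsto hΘ hB k))).const_mul _
  simpa [Sfun] using this

theorem kinetic {A A' : ℝ → Matrix ι κ ℝ}
    (hA : ∀ a i, H1 (fun x => A x a i) (fun x => A' x a i))
    {d : ι → ℝ} (hd1 : ∀ a, d a ≤ 1)
    (hon : ∀ a b, ∫ x, (A x * (A x)ᵀ) a b = diagonal d a b) :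
    π ^ 2 / 4 * ∫ x, trace (A x * (A x)ᵀ * (A x * (A x)ᵀ) * (A x * (A x)ᵀ)) ≤
      ∫ x, trace (A' x * (A' x)ᵀ) := by
  set B : ℝ → Matrix ι ι ℝ := fun x => A x * (A x)ᵀ with hBdef
  have hBI : ∀ a b, IB fun x => B x a b := fun a b =>
    IB.sum univ fun i => (hA a i).ib (hA b i)
  have hBF : MFT B fun x => A' x * (A x)ᵀ + A x * (A' x)ᵀ :=
    MFT.mul (fun a i => (hA a i).ft) (fun i a => (hA a i).ft)
  have hB0 : Tendsto B atTop (𝓝 0) ∧ Tendsto B atBot (𝓝 0) := by
    constructor <;> refine tendsto_pi_nhds.2 fun a => tendsto_pi_nhds.2 fun b => ?_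
    · simpa [hBdef, Matrix.mul_apply] using
        tendsto_finsetSum univ fun i _ => ((hA a i).lim (hA b i)).1
    · simpa [hBdef, Matrix.mul_apply] using
        tendsto_finsetSum univ fun i _ => ((hA a i).lim (hA b i)).2
  set G : ℝ → Matrix ι ι ℝ := fun x => Matrix.of fun a b => ∫ t in Set.Iic x, B t a b with hG
  have hGF : MFT G B := fun a b => ⟨fun _ _ => (hBI a b).1.intervalIntegrable, fun x y =>
    intervalIntegral.integral_Iic_sub_Iic (hBI a b).1.integrableOn (hBI a b).1.integrableOn⟩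
  have hs : ∀ x a b, B x a b = B x b a := fun x a b => by
    simp only [hBdef, Matrix.mul_apply, transpose_apply, mul_comm]
  have hGq : ∀ x (v : ι → ℝ), v ⬝ᵥ v = 1 → v ⬝ᵥ (G x *ᵥ v) ∈ Set.Icc (0 : ℝ) 1 := by
    intro x v hv
    have hi : ∀ a b, Integrable fun t => v a * B t a b * v b := fun a b =>
      ((hBI a b).1.const_mul _).mul_const _
    have hq : ∀ s : Set ℝ, ∫ t in s, ∑ a, ∑ b, v a * B t a b * v b =
        ∑ a, ∑ b, v a * (∫ t in s, B t a b) * v b := fun s => by
      rw [integral_finsetSum _ fun a _ => integrable_finsetSum _ fun b _ => (hi a b).integrableOn]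
      refine Finset.sum_congr rfl fun a _ => ?_
      rw [integral_finsetSum _ fun b _ => (hi a b).integrableOn]
      refine Finset.sum_congr rfl fun b _ => ?_
      rw [integral_mul_const, integral_const_mul]
    have e : v ⬝ᵥ (G x *ᵥ v) = ∫ t in Set.Iic x, ∑ a, ∑ b, v a * B t a b * v b := by
      rw [hq]
      simp only [dotProduct, mulVec, hG, of_apply, Finset.mul_sum, mul_assoc]
    have e1 : ∫ t, ∑ a, ∑ b, v a * B t a b * v b ≤ 1 := by
      have := hq Set.univ
      simp only [Measure.restrict_univ] at this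
      rw [this, ← hv]
      simp only [hBdef, hon]
      simp only [diagonal_apply, mul_ite, mul_zero, ite_mul, zero_mul, Finset.sum_ite_eq,
        Finset.mem_univ, if_true, dotProduct]
      exact Finset.sum_le_sum fun a _ => by nlinarith [hd1 a, mul_self_nonneg (v a)]
    rw [e]
    refine ⟨integral_nonneg fun t => gram_PS (A t) v, le_trans ?_ e1⟩
    exact setIntegral_le_integral
      (integrable_finsetSum _ fun a _ => integrable_finsetSum _ fun b _ => hi a b)
      (Eventually.of_forall fun t => gram_PS (A t) v)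
  have hT : Integrable fun x => trace (A' x * (A' x)ᵀ) :=
    integrable_finsetSum _ fun a _ => integrable_finsetSum _ fun i _ =>
      (hA a i).2.1.integrable_mul (hA a i).2.1
  have hC : Integrable fun x => trace (B x * B x * B x) :=
    (IB.sum univ fun a => IB.sum univ fun b =>
      (IB.sum univ fun d => (hBI a d).mul (hBI d b)).mul (hBI b a)).1
  have hD : Integrable fun x => trace (B x) ^ 3 := by
    have h1 : IB fun x => trace (B x) := IB.sum univ fun a => hBI a a
    simpa only [pow_three'] using ((h1.mul h1).mul h1).1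
  have main : ∀ ε, 0 < ε → ε ≤ π / 2 →
      (π - 2 * ε) ^ 2 / 4 * ∫ x, trace (B x * B x * B x) ≤ ∫ x, trace (A' x * (A' x)ᵀ) := by
    intro ε hε hε2
    set ϑ := π - 2 * ε with hϑ
    have hϑ0 : 0 ≤ ϑ := by linarith
    obtain ⟨K, hK⟩ := (isCompact_Icc (a := ε) (b := π - ε)).exists_bound_of_continuousOn
      (f := fun s => cos s / sin s) (ContinuousOn.div (by fun_prop) (by fun_prop) fun s hs =>
        (sin_pos_of_pos_of_lt_pi (by linarith [hs.1]) (by linarith [hs.2])).ne')
    set Θ : ℝ → Matrix ι ι ℝ := fun x => ε • (1 : Matrix ι ι ℝ) + ϑ • G x with hΘ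
    have hΘF : MFT Θ fun x => ϑ • B x := fun a b =>
      ((FT.const ((ε • (1 : Matrix ι ι ℝ)) a b)).add ((hGF a b).cmul ϑ)).congr (fun _ => rfl)
        fun x => by simp
    have hΘl : (∃ L, Tendsto Θ atTop (𝓝 L)) ∧ ∃ L, Tendsto Θ atBot (𝓝 L) := by
      have h1 := fun a b => (hΘF a b).lim ((hBI a b).1.const_mul ϑ)
      choose L hL using fun a b => (h1 a b).1
      choose M hM using fun a b => (h1 a b).2
      exact ⟨⟨L, tendsto_pi_nhds.2 fun a => tendsto_pi_nhds.2 fun b => hL a b⟩,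
        ⟨M, tendsto_pi_nhds.2 fun a => tendsto_pi_nhds.2 fun b => hM a b⟩⟩
    obtain ⟨⟨L, hL⟩, ⟨M, hM⟩⟩ := hΘl
    have hH : ∀ x, (Θ x).IsHermitian := fun x => by
      ext a b
      simp only [hΘ, hG, conjTranspose_apply, star_trivial, Matrix.add_apply, Matrix.smul_apply,
        of_apply, hs _ a b, Matrix.one_apply, eq_comm (a := a)]
    have hq : ∀ x (v : ι → ℝ), v ⬝ᵥ v = 1 → v ⬝ᵥ (Θ x *ᵥ v) ∈ Set.Icc ε (π - ε) := by
      intro x v hv
      have := hGq x v hv
      simp only [hΘ, add_mulVec, smul_mulVec, one_mulVec, dotProduct_add, dotProduct_smul, hv,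
        smul_eq_mul]
      constructor <;> nlinarith [this.1, this.2]
    have step : ∀ η, 0 < η → 0 ≤ (∫ x, trace (A' x * (A' x)ᵀ)) -
        ϑ ^ 2 / 4 * (∫ x, trace (B x * B x * B x)) + ϑ ^ 2 / 4 *
        ((η * (2 * K + η) + η) * (Fintype.card ι) ^ 3 * ∫ x, trace (B x) ^ 3) := by
      intro η hη
      obtain ⟨n, c, h1, h2⟩ := exists_poly hε hε2 hη
      have := ((hΘF.sfun hBF n c).cmul (ϑ / 4)).nonneg
        ((hT.sub (hC.const_mul _)).add ((hD.const_mul _).const_mul _))
        (fun x => point hε hη.le hK h1 h2 (hH x) (hq x) (A x) (A' x))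
        (by simpa using (Sfun_tendsto hL hB0.1 n c).const_mul (ϑ / 4))
        (by simpa using (Sfun_tendsto hM hB0.2 n c).const_mul (ϑ / 4))
      simp only [Pi.add_apply, Pi.sub_apply] at this
      have hTC : Integrable fun x => trace (A' x * (A' x)ᵀ) -
        ϑ ^ 2 / 4 * trace (B x * B x * B x) := hT.sub (hC.const_mul _)
      rwa [integral_add hTC ((hD.const_mul _).const_mul _),
        integral_sub hT (hC.const_mul _), integral_const_mul, integral_const_mul,
        integral_const_mul] at this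
    have hc : Continuous fun η : ℝ => (∫ x, trace (A' x * (A' x)ᵀ)) -
        ϑ ^ 2 / 4 * (∫ x, trace (B x * B x * B x)) + ϑ ^ 2 / 4 *
        ((η * (2 * K + η) + η) * (Fintype.card ι) ^ 3 * ∫ x, trace (B x) ^ 3) := by fun_prop
    have := ge_of_tendsto ((hc.tendsto 0).mono_left (nhdsWithin_le_nhds (s := Set.Ioi 0)))
      (eventually_nhdsWithin_of_forall step)
    simp only [zero_mul, add_zero, mul_zero] at this
    linarith
  have hc : Continuous fun ε : ℝ => (π - 2 * ε) ^ 2 / 4 * ∫ x, trace (B x * B x * B x) := by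
    fun_prop
  have := le_of_tendsto ((hc.tendsto 0).mono_left (nhdsWithin_le_nhds (s := Set.Ioi 0)))
    (by
      filter_upwards [Ioc_mem_nhdsGT (show (0 : ℝ) < π / 2 by positivity)] with ε hε
      exact main ε hε.1 hε.2)
  simpa using this

end Vale.Agent.P371
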