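import Vale.Agent.P371.Upper

open Real Finset Filter Topology MeasureTheory Matrix
open scoped ENNReal ComplexOrder

namespace Vale.Agent.P371

lemma sech_int : Integrable fun x : ℝ => (cosh x)⁻¹ := by
  refine (integrable_inv_one_add_sq.const_mul 2).mono' (Continuous.aestronglyMeasurable
    (continuous_cosh.inv₀ fun x => (cosh_pos x).ne')) (Eventually.of_forall fun x => ?_)
  have h1 : cosh x = 1 + 2 * sinh (x / 2) ^ 2 := by
    have := cosh_two_mul (x / 2)
    rw [show 2 * (x / 2) = x by ring, cosh_sq] at this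
    linarith
  have h2 : (x / 2) ^ 2 ≤ sinh (x / 2) ^ 2 := by
    rw [sq_le_sq, abs_sinh]
    exact self_le_sinh_iff.2 (abs_nonneg _)
  rw [Real.norm_eq_abs, abs_of_pos (inv_pos.2 (cosh_pos x)), ← div_eq_mul_inv,
    le_div_iff₀ (by positivity), inv_mul_le_iff₀ (cosh_pos x)]
  nlinarith

lemma sech_val : ∫ x : ℝ, (cosh x)⁻¹ = π := by
  have ht : Tendsto sinh atTop atTop :=
    tendsto_atTop_mono' _ (by
      filter_upwards [eventually_ge_atTop (0 : ℝ)] with x hx using self_le_sinh_iff.2 hx)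
      tendsto_id
  have hb : Tendsto sinh atBot atBot :=
    tendsto_atBot_mono' _ (by
      filter_upwards [eventually_le_atBot (0 : ℝ)] with x hx using sinh_le_self_iff.2 hx)
      tendsto_id
  have := integral_of_hasDerivAt_of_tendsto (f := fun x => arctan (sinh x))
    (f' := fun x => (cosh x)⁻¹) (fun x => ((hasDerivAt_sinh x).arctan).congr_deriv (by
      have := (cosh_pos x).ne'
      rw [add_comm, ← cosh_sq]; field_simp)) sech_int
    ((tendsto_nhds_of_tendsto_nhdsWithin tendsto_arctan_atBot).comp hb)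
    ((tendsto_nhds_of_tendsto_nhdsWithin tendsto_arctan_atTop).comp ht)
  rw [this]; ring

lemma sech_le (x : ℝ) : |(cosh x)⁻¹| ≤ 1 := by
  rw [abs_of_pos (inv_pos.2 (cosh_pos x))]
  exact inv_le_one_of_one_le₀ (one_le_cosh x)

lemma tanh_le (x : ℝ) : |sinh x * (cosh x)⁻¹| ≤ 1 := by
  rw [abs_mul, abs_of_pos (inv_pos.2 (cosh_pos x)), ← div_eq_mul_inv, div_le_one (cosh_pos x)]
  exact abs_le_of_sq_le_sq (by rw [cosh_sq]; linarith) (cosh_pos x).le

lemma sech_cont : Continuous fun x : ℝ => (cosh x)⁻¹ :=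
  continuous_cosh.inv₀ fun x => (cosh_pos x).ne'

lemma sech3_int : Integrable fun x : ℝ => (cosh x)⁻¹ ^ 3 := by
  have := (sech_int.bdd_mul (c := 1) sech_cont.aestronglyMeasurable
    (Eventually.of_forall sech_le)).bdd_mul (c := 1) sech_cont.aestronglyMeasurable
    (Eventually.of_forall sech_le)
  simpa only [pow_three] using this

lemma sech3_val : ∫ x : ℝ, (cosh x)⁻¹ ^ 3 = π / 2 := by
  have := integral_eq_zero_of_hasDerivAt_of_integrable
    (f := fun x => sinh x * (cosh x)⁻¹ * (cosh x)⁻¹)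
    (f' := fun x => 2 * (cosh x)⁻¹ ^ 3 - (cosh x)⁻¹)
    (fun x => (((hasDerivAt_sinh x).mul ((hasDerivAt_cosh x).inv (cosh_pos x).ne')).mul
      ((hasDerivAt_cosh x).inv (cosh_pos x).ne')).congr_deriv (by
        have := (cosh_pos x).ne'
        simp only [Pi.mul_apply, Pi.inv_apply]
        field_simp
        rw [cosh_sq]; ring))
    ((sech3_int.const_mul 2).sub sech_int)
    (sech_int.bdd_mul (c := 1) (continuous_sinh.mul sech_cont).aestronglyMeasurable
      (Eventually.of_forall tanh_le))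
  rw [integral_sub (sech3_int.const_mul 2) sech_int, integral_const_mul, sech_val] at this
  linarith

noncomputable def ph (x : ℝ) : ℝ := (√π)⁻¹ * (√(cosh x))⁻¹

lemma ph_sq (x : ℝ) : ph x * ph x = π⁻¹ * (cosh x)⁻¹ := by
  rw [ph, mul_mul_mul_comm, ← mul_inv, ← mul_inv, mul_self_sqrt pi_pos.le,
    mul_self_sqrt (cosh_pos x).le]

lemma ph_deriv (x : ℝ) : HasDerivAt ph (-(1 / 2) * (sinh x * (cosh x)⁻¹) * ph x) x := by
  have h0 : 0 < √(cosh x) := Real.sqrt_pos.2 (cosh_pos x)
  refine ((((hasDerivAt_cosh x).sqrt (cosh_pos x).ne').inv h0.ne').const_mul _).congr_deriv ?_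
  have h1 : cosh x = √(cosh x) ^ 2 := (Real.sq_sqrt (cosh_pos x).le).symm
  rw [ph]
  generalize √(cosh x) = s at *
  rw [h1]
  field_simp

lemma ph_cont : Continuous ph := continuous_iff_continuousAt.2 fun x => (ph_deriv x).continuousAt

lemma ph_mem {g : ℝ → ℝ} (hg : Continuous g) (h1 : ∀ x, |g x| ≤ 1) :
    MemLp (fun x => g x * ph x) 2 volume := by
  have h0 : MemLp ph 2 volume := by
    rw [memLp_two_iff_integrable_sq ph_cont.aestronglyMeasurable]
    simpa only [sq, ph_sq] using sech_int.const_mul π⁻¹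
  refine h0.of_le (hg.mul ph_cont).aestronglyMeasurable (Eventually.of_forall fun x => ?_)
  rw [norm_mul]
  exact mul_le_of_le_one_left (norm_nonneg _) (h1 x)

noncomputable def ph1 (x : ℝ) : ℝ := -(1 / 2) * (sinh x * (cosh x)⁻¹) * ph x
noncomputable def ph2 (x : ℝ) : ℝ := (1 / 4 - 3 / 4 * (cosh x)⁻¹ ^ 2) * ph x

lemma ph1_deriv (x : ℝ) : HasDerivAt ph1 (ph2 x) x := by
  refine ((((hasDerivAt_sinh x).mul ((hasDerivAt_cosh x).inv (cosh_pos x).ne')).const_mul
    (-(1 / 2))).mul (ph_deriv x)).congr_deriv ?_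
  have := (cosh_pos x).ne'
  simp only [Pi.mul_apply, Pi.inv_apply, ph2]
  field_simp
  rw [cosh_sq]; ring

lemma ph1_mem : MemLp ph1 2 volume :=
  ph_mem (continuous_const.mul (continuous_sinh.mul sech_cont)) fun x => by
    rw [abs_mul, abs_neg, abs_of_pos (by norm_num : (0 : ℝ) < 1 / 2)]
    linarith [tanh_le x]

lemma ph2_mem : MemLp ph2 2 volume :=
  ph_mem (continuous_const.sub (continuous_const.mul (sech_cont.pow 2))) fun x => by
    have h := sq_le_one_iff_abs_le_one _ |>.2 (sech_le x)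
    have := sq_nonneg (cosh x)⁻¹
    rw [abs_le]; constructor <;> linarith

lemma ph1_cont : Continuous ph1 :=
  continuous_iff_continuousAt.2 fun x => (ph1_deriv x).continuousAt

lemma ph_H1 : H1 ph ph1 :=
  ⟨by simpa using ph_mem (g := fun _ => 1) continuous_const (by simp), ph1_mem, fun a b =>
    (intervalIntegral.integral_eq_sub_of_hasDerivAt (fun x _ => ph_deriv x)
      (ph1_cont.intervalIntegrable _ _)).symm⟩

lemma ph1_H1 : H1 ph1 ph2 :=
  ⟨ph1_mem, ph2_mem, fun _ _ =>
    (intervalIntegral.integral_eq_sub_of_hasDerivAt (fun x _ => ph1_deriv x)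
      (((continuous_const.sub (continuous_const.mul (sech_cont.pow 2))).mul
        ph_cont).intervalIntegrable _ _)).symm⟩

lemma H1.ibp {f f' g g' : ℝ → ℝ} (hf : H1 f f') (hg : H1 g g') :
    ∫ x, (f' x * g x + f x * g' x) = 0 := by
  have h := hf.ft.mul hg.ft
  have hi := hf.mul_int hg
  obtain ⟨l1, l2⟩ := hf.lim hg
  refine le_antisymm ?_ (h.nonneg hi (fun _ => le_rfl) l1 l2)
  have := (h.cmul (-1)).nonneg (hi.const_mul (-1)) (fun _ => le_rfl)
    (by simpa using l1.neg) (by simpa using l2.neg)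
  rw [integral_const_mul] at this
  linarith

variable {m : ℕ}

noncomputable def exW (m : ℕ) (x : ℝ) : Matrix (Fin m) (Fin m) ℂ :=
  algebraMap ℝ _ (3 / 4 * (cosh x)⁻¹ ^ 2)

noncomputable def exψ (j : Fin m) (x : ℝ) : Fin m → ℂ := Pi.single j (ph x : ℂ)

lemma exW_apply (x : ℝ) (i k : Fin m) :
    exW m x i k = if i = k then ((3 / 4 * (cosh x)⁻¹ ^ 2 : ℝ) : ℂ) else 0 := by
  rw [exW, Matrix.algebraMap_matrix_apply]; rfl

lemma ex_eigen (j : Fin m) : IsEigen (exW m) (-(1 / 4)) (exψ j) := by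
  refine ⟨fun x => Pi.single j (ph1 x : ℂ), fun i => ?_, fun χ χ' hχ => ?_⟩
  · by_cases h : i = j
    · subst h
      simp only [exψ, Pi.single_eq_same]
      refine ⟨ph_H1.1.ofReal, ph_H1.2.1.ofReal, fun a b => ?_⟩
      rw [intervalIntegral.integral_ofReal, ← ph_H1.2.2, Complex.ofReal_sub]
    · simp [exψ, h]
  · have e1 : ∀ x, star (χ x) ⬝ᵥ (exW m x *ᵥ exψ j x) =
        star (χ x j) * ((3 / 4 * (cosh x)⁻¹ ^ 2 * ph x : ℝ) : ℂ) := fun x => by
      simp only [exψ, mulVec_single, dotProduct, Pi.star_apply, Pi.smul_apply, col_apply,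
        exW_apply]
      simp
    simp only [e1]
    simp only [exψ, dotProduct_single, Pi.star_apply]
    have i1 : Integrable fun x => star (χ' x j) * (ph1 x : ℂ) :=
      (hχ j).2.1.star.integrable_mul ph1_mem.ofReal
    have i2 : Integrable fun x => star (χ x j) * (ph x : ℂ) :=
      (hχ j).1.star.integrable_mul ph_H1.1.ofReal
    have i3 : Integrable fun x => star (χ x j) * (ph2 x : ℂ) :=
      (hχ j).1.star.integrable_mul ph2_mem.ofReal
    have e2 : ∀ x, star (χ x j) * ((3 / 4 * (cosh x)⁻¹ ^ 2 * ph x : ℝ) : ℂ) =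
        1 / 4 * (star (χ x j) * (ph x : ℂ)) - star (χ x j) * (ph2 x : ℂ) := fun x => by
      simp only [ph2]; push_cast; ring
    simp only [e2]
    rw [integral_sub (i2.const_mul _) i3, integral_const_mul]
    have e3 : (∫ x, star (χ' x j) * (ph1 x : ℂ)) + ∫ x, star (χ x j) * (ph2 x : ℂ) = 0 := by
      rw [← integral_add i1 i3]
      apply Complex.ext
      · refine (integral_re (i1.add i3)).symm.trans ?_
        simpa using (hχ.clm j Complex.reCLM).ibp ph1_H1
      · refine (integral_im (i1.add i3)).symm.trans ?_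
        simpa using (hχ.clm j (-Complex.imCLM)).ibp ph1_H1
    push_cast
    linear_combination e3

lemma ex_on (j k : Fin m) : ∫ x, star (exψ j x) ⬝ᵥ exψ k x = if j = k then 1 else 0 := by
  simp only [exψ, dotProduct_single, Pi.star_apply]
  split_ifs with h
  · subst h
    simp only [Pi.single_eq_same, Complex.star_def, Complex.conj_ofReal, ← Complex.ofReal_mul,
      ph_sq]
    rw [integral_complex_ofReal, integral_const_mul, sech_val, inv_mul_cancel₀ pi_ne_zero]
    simp
  · simp [Ne.symm h]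

lemma ex_tr : trPowInt (1 + 1 / 2) (exW m) = ENNReal.ofReal (m * (3 * √3 / 8 * (π / 2))) := by
  have e : ∀ x, (trace (cfc (fun t : ℝ => t ^ (1 + 1 / 2 : ℝ)) (exW m x))).re =
      m * (3 * √3 / 8 * (cosh x)⁻¹ ^ 3) := fun x => by
    have h0 : 0 ≤ (cosh x)⁻¹ := (inv_pos.2 (cosh_pos x)).le
    have : (3 / 4 * (cosh x)⁻¹ ^ 2 : ℝ) ^ (1 + 1 / 2 : ℝ) = 3 * √3 / 8 * (cosh x)⁻¹ ^ 3 := by
      have h3 : (3 / 4 * (cosh x)⁻¹ ^ 2 : ℝ) = (√3 / 2 * (cosh x)⁻¹) ^ 2 := by
        rw [mul_pow, div_pow, Real.sq_sqrt (by norm_num)]; norm_num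
      rw [h3, ← Real.rpow_natCast, ← Real.rpow_mul (by positivity),
        show ((2 : ℕ) : ℝ) * (1 + 1 / 2) = (3 : ℕ) by norm_num, Real.rpow_natCast, mul_pow,
        div_pow, pow_succ √3 2, Real.sq_sqrt (by norm_num)]
      norm_num
    rw [exW, cfc_algebraMap, this]
    generalize 3 * √3 / 8 * (cosh x)⁻¹ ^ 3 = r
    simp [trace, Matrix.algebraMap_matrix_apply]
  simp only [trPowInt, e]
  rw [← ofReal_integral_eq_lintegral_ofReal ((sech3_int.const_mul _).const_mul _)
    (Eventually.of_forall fun x => by have := cosh_pos x; positivity), integral_const_mul,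
    integral_const_mul, sech3_val]

theorem lower_one {m : ℕ} (hm : 1 ≤ m) : ENNReal.ofReal L1 ≤ LT 1 m := by
  have hm0 : (0 : ℝ) < m := by exact_mod_cast hm
  have hP : IsPotential 1 (exW m) := by
    refine ⟨fun i k => ?_, fun x => ?_, by rw [ex_tr]; exact ENNReal.ofReal_lt_top⟩
    · simp only [exW_apply]
      split_ifs
      · exact (Complex.continuous_ofReal.comp (continuous_const.mul (sech_cont.pow 2))).measurable
      · exact measurable_const
    · rw [exW, Algebra.algebraMap_eq_smul_one]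
      exact PosSemidef.one.smul (by positivity)
  have hne : ¬ ∀ᵐ x, exW m x = 0 := fun h => by
    obtain ⟨x, hx⟩ := h.exists
    have := congrFun (congrFun hx ⟨0, hm⟩) ⟨0, hm⟩
    rw [exW_apply, if_pos rfl, Matrix.zero_apply, Complex.ofReal_eq_zero] at this
    have h2 := cosh_pos x
    exact absurd this (by positivity)
  refine le_iSup_of_le (exW m) (le_iSup_of_le hP (le_iSup_of_le hne ?_))
  have h1 : ENNReal.ofReal (m * (1 / 4)) ≤ riesz 1 (exW m) :=
    le_iSup_of_le m (le_iSup_of_le (fun _ => -(1 / 4)) (le_iSup_of_le exψ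
      (le_iSup_of_le (fun j => ⟨by norm_num, ex_eigen j⟩) (le_iSup_of_le ex_on
        (le_of_eq (by norm_num [abs_of_pos]))))))
  refine le_trans (le_of_eq ?_) (ENNReal.div_le_div_right h1 _)
  rw [ex_tr, ← ENNReal.ofReal_div_of_pos (by positivity), L1]
  congr 1
  field_simp
  norm_num

lemma Lone_one : Lone 1 = L1 := by
  have h1 : Real.Gamma (1 + 3 / 2) = 3 / 4 * √π := by
    rw [show (1 + 3 / 2 : ℝ) = (1 / 2 + 1) + 1 by norm_num, Real.Gamma_add_one (by norm_num),
      Real.Gamma_add_one (by norm_num), Real.Gamma_one_half_eq]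
    ring
  have h2 : ((1 - 1 / 2) / (1 + 1 / 2) : ℝ) ^ (1 - 1 / 2 : ℝ) = (√3)⁻¹ := by
    rw [← Real.sqrt_inv, Real.sqrt_eq_rpow]; norm_num
  have h3 : √π * √π = π := mul_self_sqrt pi_pos.le
  rw [Lone, Lcl, h1, h2, Real.Gamma_add_one one_ne_zero, Real.Gamma_one, L1,
    show 2 * √π * (3 / 4 * √π) = 3 / 2 * (√π * √π) by ring, h3]
  field_simp
  norm_num

end Vale.Agent.P371
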