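import Vale.Agent.P371.Kern

open Real Finset Filter Topology MeasureTheory Matrix

namespace Vale.Agent.P371

def hd (s t : ℝ) : ℕ → ℝ
  | 0 => 0
  | k + 1 => t ^ k + s * hd s t k

lemma hd_mul (s t : ℝ) (k : ℕ) : (s - t) * hd s t k = s ^ k - t ^ k := by
  induction k with
  | zero => simp [hd]
  | succ k ih =>
    have : (s - t) * hd s t (k + 1) = (s - t) * t ^ k + s * ((s - t) * hd s t k) := by
      simp only [hd]; ring
    rw [this, ih]; ring

lemma hd_self (s : ℝ) (k : ℕ) : hd s s (k + 1) = (k + 1) * s ^ k := by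
  induction k with
  | zero => simp [hd]
  | succ k ih => rw [hd, ih]; push_cast; ring

lemma hd_int (s t : ℝ) (k : ℕ) :
    hd s t (k + 1) = ∫ u in (0 : ℝ)..1, ((k : ℝ) + 1) * (t + u * (s - t)) ^ k := by
  rcases eq_or_ne s t with rfl | hne
  · simp [hd_self]
  · have hd0 : s - t ≠ 0 := sub_ne_zero.2 hne
    have h : ∫ u in (0 : ℝ)..1, ((k : ℝ) + 1) * (t + u * (s - t)) ^ k =
        (t + 1 * (s - t)) ^ (k + 1) / (s - t) - (t + 0 * (s - t)) ^ (k + 1) / (s - t) := by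
      refine intervalIntegral.integral_eq_sub_of_hasDerivAt
        (f := fun u => (t + u * (s - t)) ^ (k + 1) / (s - t)) (fun u _ => ?_)
        (Continuous.intervalIntegrable (by fun_prop) _ _)
      refine (((((hasDerivAt_id u).mul_const (s - t)).const_add t).pow (k + 1)).div_const
        (s - t)).congr_deriv ?_
      simp only [id, Nat.add_sub_cancel]
      push_cast
      field_simp
    rw [h, ← sub_div, eq_div_iff hd0, mul_comm, hd_mul]
    simp

lemma exists_poly {ε η : ℝ} (hε : 0 < ε) (hε2 : ε ≤ π / 2) (hη : 0 < η) :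
    ∃ (n : ℕ) (c : ℕ → ℝ), (∀ s ∈ Set.Icc ε (π - ε),
      |∑ k ∈ range n, c k * s ^ k - cos s / sin s| ≤ η) ∧
      ∀ s ∈ Set.Icc ε (π - ε), ∀ t ∈ Set.Icc ε (π - ε),
        |∑ k ∈ range n, c k * hd s t k - Dq s t| ≤ η := by
  have hsin : ∀ s ∈ Set.Icc ε (π - ε), sin s ≠ 0 := fun s hs =>
    (sin_pos_of_pos_of_lt_pi (by linarith [hs.1]) (by linarith [hs.2])).ne'
  obtain ⟨q, hq⟩ := exists_polynomial_near_of_continuousOn ε (π - ε) (fun s => -1 / sin s ^ 2)
    (ContinuousOn.div (by fun_prop) (by fun_prop) fun s hs => pow_ne_zero _ (hsin s hs))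
    (η / 2) (by positivity)
  set n := q.natDegree + 1
  set c : ℕ → ℝ := fun k => if k = 0 then
    -∑ j ∈ range n, q.coeff j / (j + 1) * (π / 2) ^ (j + 1) else q.coeff (k - 1) / k with hc
  have hcs : ∀ j : ℕ, c (j + 1) = q.coeff j / (j + 1) := fun j => by simp [hc]
  have h2 : ∀ s ∈ Set.Icc ε (π - ε), ∀ t ∈ Set.Icc ε (π - ε),
      |∑ k ∈ range (n + 1), c k * hd s t k - Dq s t| ≤ η / 2 := by
    intro s hs t ht
    have hm : ∀ u ∈ Set.uIcc (0 : ℝ) 1, t + u * (s - t) ∈ Set.Icc ε (π - ε) := fun u hu => by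
      rw [Set.uIcc_of_le zero_le_one] at hu
      constructor <;> nlinarith [hu.1, hu.2, hs.1, hs.2, ht.1, ht.2]
    have e : ∑ k ∈ range (n + 1), c k * hd s t k = ∫ u in (0 : ℝ)..1, q.eval (t + u * (s - t)) := by
      rw [Finset.sum_range_succ']
      simp only [hd, mul_zero, add_zero, Polynomial.eval_eq_sum_range]
      rw [intervalIntegral.integral_finsetSum fun j _ =>
        Continuous.intervalIntegrable (by fun_prop) _ _]
      refine Finset.sum_congr rfl fun j _ => ?_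
      change c (j + 1) * hd s t (j + 1) = _
      rw [hd_int, hcs, ← intervalIntegral.integral_const_mul]
      congr 1; funext u
      have : (j : ℝ) + 1 ≠ 0 := by positivity
      field_simp
    have i1 : IntervalIntegrable (fun u : ℝ => q.eval (t + u * (s - t))) volume 0 1 :=
      Continuous.intervalIntegrable (q.continuous.comp (by fun_prop)) _ _
    have i2 : IntervalIntegrable (fun u : ℝ => -1 / sin (t + u * (s - t)) ^ 2) volume 0 1 :=
      ContinuousOn.intervalIntegrable (ContinuousOn.div (by fun_prop) (by fun_prop)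
        fun u hu => pow_ne_zero _ (hsin _ (hm u hu)))
    rw [e, Dq, ← intervalIntegral.integral_sub i1 i2]
    have := intervalIntegral.norm_integral_le_of_norm_le_const (a := 0) (b := 1) (C := η / 2)
      (f := fun u => q.eval (t + u * (s - t)) - -1 / sin (t + u * (s - t)) ^ 2)
      fun u hu => (hq _ (hm u (Set.uIoc_subset_uIcc hu))).le
    simpa using this
  refine ⟨n + 1, c, fun s hs => ?_, fun s hs t ht => (h2 s hs t ht).trans (by linarith)⟩
  have hp : π / 2 ∈ Set.Icc ε (π - ε) := ⟨hε2, by linarith⟩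
  have e1 : ∑ k ∈ range (n + 1), c k * s ^ k =
      (s - π / 2) * ∑ k ∈ range (n + 1), c k * hd s (π / 2) k := by
    have : ∑ k ∈ range (n + 1), c k * (π / 2) ^ k = 0 := by
      rw [Finset.sum_range_succ']
      simp only [hcs]
      simp [hc]
    rw [Finset.mul_sum, ← sub_zero (∑ k ∈ range (n + 1), c k * s ^ k), ← this,
      ← Finset.sum_sub_distrib]
    refine Finset.sum_congr rfl fun k _ => ?_
    rw [← mul_sub, ← hd_mul]; ring
  have e2 : cos s / sin s = (s - π / 2) * Dq s (π / 2) := by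
    rw [Dq_eq ⟨by linarith [hs.1], by linarith [hs.2]⟩ ⟨by positivity, by linarith [pi_pos]⟩]
    have := Sd_mul (s - π / 2) 1
    rw [one_mul, sin_sub_pi_div_two] at this
    have h0 := hsin s hs
    rw [sin_pi_div_two]
    generalize Sd (s - π / 2) 1 = w at this ⊢
    generalize s - π / 2 = v at this ⊢
    field_simp
    linarith
  rw [e1, e2, ← mul_sub, abs_mul]
  have h3 : |s - π / 2| ≤ 2 := by
    rw [abs_le]; constructor <;> linarith [hs.1, hs.2, pi_le_four]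
  calc _ ≤ 2 * (η / 2) := mul_le_mul h3 (h2 s hs _ hp) (abs_nonneg _) (by norm_num)
    _ = η := by ring

variable {ι κ : Type*} [Fintype ι] [DecidableEq ι] [Fintype κ]

noncomputable def Lop (Θ Y : Matrix ι ι ℝ) : Matrix ι ι ℝ := (1 / 2 : ℝ) • (Θ * Y + Y * Θ)

noncomputable def Yk (Θ B : Matrix ι ι ℝ) : ℕ → Matrix ι ι ℝ
  | 0 => B
  | k + 1 => Lop Θ (Yk Θ B k)

noncomputable def Dk (Θ B Θ' B' : Matrix ι ι ℝ) : ℕ → Matrix ι ι ℝ
  | 0 => B'
  | k + 1 => Lop Θ' (Yk Θ B k) + Lop Θ (Dk Θ B Θ' B' k)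

noncomputable def Sfun (n : ℕ) (c : ℕ → ℝ) (Θ B : Matrix ι ι ℝ) : ℝ :=
  ∑ k ∈ range n, c k * trace (B * Yk Θ B k)

noncomputable def dS (n : ℕ) (c : ℕ → ℝ) (Θ B Θ' B' : Matrix ι ι ℝ) : ℝ :=
  ∑ k ∈ range n, c k * (trace (B' * Yk Θ B k) + trace (B * Dk Θ B Θ' B' k))

lemma conj_mul {U : Matrix ι ι ℝ} (hU : U * Uᵀ = 1) (X Y : Matrix ι ι ℝ) :
    (Uᵀ * X * U) * (Uᵀ * Y * U) = Uᵀ * (X * Y) * U := by
  calc _ = Uᵀ * X * (U * Uᵀ) * Y * U := by simp only [Matrix.mul_assoc]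
    _ = _ := by rw [hU, Matrix.mul_one]; simp only [Matrix.mul_assoc]

lemma conj_trace {U : Matrix ι ι ℝ} (hU : U * Uᵀ = 1) (X : Matrix ι ι ℝ) :
    trace (Uᵀ * X * U) = trace X := by
  rw [trace_mul_comm, ← Matrix.mul_assoc, hU, Matrix.one_mul]

lemma conj_Lop {U : Matrix ι ι ℝ} (hU : U * Uᵀ = 1) (X Y : Matrix ι ι ℝ) :
    Lop (Uᵀ * X * U) (Uᵀ * Y * U) = Uᵀ * Lop X Y * U := by
  simp only [Lop, conj_mul hU, Matrix.mul_smul, Matrix.smul_mul, Matrix.mul_add, Matrix.add_mul]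

lemma conj_Yk {U : Matrix ι ι ℝ} (hU : U * Uᵀ = 1) (Θ B : Matrix ι ι ℝ) (k : ℕ) :
    Yk (Uᵀ * Θ * U) (Uᵀ * B * U) k = Uᵀ * Yk Θ B k * U := by
  induction k with
  | zero => rfl
  | succ k ih => rw [Yk, ih, conj_Lop hU, Yk]

lemma conj_Dk {U : Matrix ι ι ℝ} (hU : U * Uᵀ = 1) (Θ B Θ' B' : Matrix ι ι ℝ) (k : ℕ) :
    Dk (Uᵀ * Θ * U) (Uᵀ * B * U) (Uᵀ * Θ' * U) (Uᵀ * B' * U) k = Uᵀ * Dk Θ B Θ' B' k * U := by
  induction k with
  | zero => rfl
  | succ k ih =>
    rw [Dk, ih, conj_Yk hU, conj_Lop hU, conj_Lop hU, Dk, Matrix.mul_add, Matrix.add_mul]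

lemma conj_dS {U : Matrix ι ι ℝ} (hU : U * Uᵀ = 1) (n : ℕ) (c : ℕ → ℝ)
    (Θ B Θ' B' : Matrix ι ι ℝ) :
    dS n c (Uᵀ * Θ * U) (Uᵀ * B * U) (Uᵀ * Θ' * U) (Uᵀ * B' * U) = dS n c Θ B Θ' B' := by
  simp only [dS, conj_Yk hU, conj_Dk hU, conj_mul hU, conj_trace hU]

lemma Lop_diag (θ : ι → ℝ) (Y : Matrix ι ι ℝ) (a c : ι) :
    Lop (diagonal θ) Y a c = (θ a + θ c) / 2 * Y a c := by
  simp [Lop, diagonal_mul, mul_diagonal]; ring

lemma Yk_diag (θ : ι → ℝ) (B : Matrix ι ι ℝ) (k : ℕ) (a c : ι) :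
    Yk (diagonal θ) B k a c = ((θ a + θ c) / 2) ^ k * B a c := by
  induction k with
  | zero => simp [Yk]
  | succ k ih => rw [Yk, Lop_diag, ih]; ring

lemma Dk_diag (θ : ι → ℝ) (B Θ' B' : Matrix ι ι ℝ) (k : ℕ) (a c : ι) :
    Dk (diagonal θ) B Θ' B' k a c = ((θ a + θ c) / 2) ^ k * B' a c +
      ∑ b, (Θ' a b * B b c * hd ((θ a + θ c) / 2) ((θ b + θ c) / 2) k +
        B a b * Θ' b c * hd ((θ a + θ c) / 2) ((θ a + θ b) / 2) k) / 2 := by
  induction k with
  | zero => simp [Dk, hd]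
  | succ k ih =>
    rw [Dk, Matrix.add_apply, Lop_diag, ih]
    simp only [Lop, Matrix.smul_apply, Matrix.add_apply, Matrix.mul_apply, Yk_diag, hd,
      smul_eq_mul, mul_add, Finset.mul_sum, ← Finset.sum_add_distrib]
    rw [add_left_comm, ← Finset.sum_add_distrib]
    congr 1
    · ring
    · exact Finset.sum_congr rfl fun b _ => by ring

lemma dS_diag (n : ℕ) (c : ℕ → ℝ) (θ : ι → ℝ) (ϑ : ℝ) {B : Matrix ι ι ℝ} (B' : Matrix ι ι ℝ)
    (hs : ∀ a b, B a b = B b a) :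
    dS n c (diagonal θ) B (ϑ • B) B' =
      ∑ a, ∑ b, (∑ k ∈ range n, c k * ((θ a + θ b) / 2) ^ k) * B a b * (B' a b + B' b a) +
      ϑ * ∑ a, ∑ b, ∑ d, (∑ k ∈ range n, c k * hd ((θ a + θ d) / 2) ((θ b + θ d) / 2) k) *
        (B a b * B b d * B d a) := by
  have key : ∀ k, trace (B' * Yk (diagonal θ) B k) + trace (B * Dk (diagonal θ) B (ϑ • B) B' k) =
      ∑ a, ∑ b, ((θ a + θ b) / 2) ^ k * B a b * (B' a b + B' b a) +
      ϑ * ∑ a, ∑ b, ∑ d, hd ((θ a + θ d) / 2) ((θ b + θ d) / 2) k * (B a b * B b d * B d a) := by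
    intro k
    have e1 : trace (B' * Yk (diagonal θ) B k) =
        ∑ a, ∑ b, ((θ a + θ b) / 2) ^ k * B a b * B' b a := by
      rw [trace_mul_comm]
      simp only [trace, Matrix.diag, Matrix.mul_apply, Yk_diag]
    have e2 : trace (B * Dk (diagonal θ) B (ϑ • B) B' k) =
        ∑ a, ∑ b, ((θ a + θ b) / 2) ^ k * B a b * B' a b +
        (ϑ / 2 * ∑ a, ∑ d, ∑ b, hd ((θ a + θ d) / 2) ((θ b + θ d) / 2) k * (B a b * B b d * B d a)
        + ϑ / 2 * ∑ a, ∑ d, ∑ b,
          hd ((θ a + θ d) / 2) ((θ a + θ b) / 2) k * (B a b * B b d * B d a)) := by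
      rw [trace_mul_comm]
      simp only [trace, Matrix.diag, Matrix.mul_apply, Dk_diag, Finset.mul_sum, ← Finset.sum_add_distrib,
        add_mul, Finset.sum_mul, Matrix.smul_apply, smul_eq_mul]
      refine Finset.sum_congr rfl fun a _ => Finset.sum_congr rfl fun d _ => ?_
      congr 1
      · rw [hs d a]; ring
      · exact Finset.sum_congr rfl fun b _ => by ring
    have e3 : ∑ a, ∑ d, ∑ b, hd ((θ a + θ d) / 2) ((θ b + θ d) / 2) k * (B a b * B b d * B d a) =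
        ∑ a, ∑ b, ∑ d, hd ((θ a + θ d) / 2) ((θ b + θ d) / 2) k * (B a b * B b d * B d a) :=
      Finset.sum_congr rfl fun a _ => Finset.sum_comm
    have e4 : ∑ a, ∑ d, ∑ b, hd ((θ a + θ d) / 2) ((θ a + θ b) / 2) k * (B a b * B b d * B d a) =
        ∑ a, ∑ d, ∑ b, hd ((θ a + θ d) / 2) ((θ b + θ d) / 2) k * (B a b * B b d * B d a) := by
      rw [Finset.sum_comm]
      refine Finset.sum_congr rfl fun a _ => Finset.sum_congr rfl fun d _ =>
        Finset.sum_congr rfl fun b _ => ?_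
      rw [add_comm (θ d) (θ a), add_comm (θ d) (θ b), hs d b, hs b a, hs a d]; ring
    rw [e1, e2, e4, e3]
    simp only [mul_add, Finset.sum_add_distrib]
    ring
  simp only [dS, key, mul_add, Finset.sum_add_distrib]
  congr 1
  · simp only [Finset.mul_sum, Finset.sum_mul, ← Finset.sum_add_distrib]
    rw [Finset.sum_comm]
    refine Finset.sum_congr rfl fun a _ => ?_
    rw [Finset.sum_comm]
    exact Finset.sum_congr rfl fun b _ => Finset.sum_congr rfl fun k _ => by ring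
  · simp only [Finset.mul_sum, Finset.sum_mul]
    rw [Finset.sum_comm]
    refine Finset.sum_congr rfl fun a _ => ?_
    rw [Finset.sum_comm]
    refine Finset.sum_congr rfl fun b _ => ?_
    rw [Finset.sum_comm]
    exact Finset.sum_congr rfl fun d _ => Finset.sum_congr rfl fun k _ => by ring

omit [DecidableEq ι] in
lemma gram_PS (A : Matrix ι κ ℝ) : PS (fun a b => (A * Aᵀ) a b) := by
  intro z
  have : ∑ a, ∑ b, z a * (A * Aᵀ) a b * z b = ∑ i, (∑ a, z a * A a i) ^ 2 := by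
    simp only [Matrix.mul_apply, transpose_apply, sq, Finset.mul_sum,
      Finset.sum_mul]
    rw [Finset.sum_comm]
    conv_rhs => rw [Finset.sum_comm]
    refine Finset.sum_congr rfl fun a _ => ?_
    conv_rhs => rw [Finset.sum_comm]
    exact Finset.sum_congr rfl fun b _ => Finset.sum_congr rfl fun i _ => by ring
  rw [this]
  exact Finset.sum_nonneg fun i _ => sq_nonneg _

omit [DecidableEq ι] in
lemma gram_abs_le (A : Matrix ι κ ℝ) (a b : ι) : |(A * Aᵀ) a b| ≤ trace (A * Aᵀ) := by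
  have hd : ∀ a, 0 ≤ (A * Aᵀ) a a := fun a => by
    simp only [Matrix.mul_apply, transpose_apply]
    exact Finset.sum_nonneg fun i _ => mul_self_nonneg _
  have h1 : ∀ a, (A * Aᵀ) a a ≤ trace (A * Aᵀ) := fun a =>
    Finset.single_le_sum (f := fun a => (A * Aᵀ) a a) (fun a _ => hd a) (Finset.mem_univ a)
  have h2 : |(A * Aᵀ) a b| ≤ ((A * Aᵀ) a a + (A * Aᵀ) b b) / 2 := by
    simp only [Matrix.mul_apply, transpose_apply]
    rw [← Finset.sum_add_distrib, Finset.sum_div]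
    refine (Finset.abs_sum_le_sum_abs _ _).trans (Finset.sum_le_sum fun i _ => ?_)
    rw [abs_le]
    constructor <;> nlinarith [sq_nonneg (A a i - A b i), sq_nonneg (A a i + A b i)]
  linarith [h1 a, h1 b]

lemma point_diag {ε η K ϑ : ℝ} (hε : 0 < ε) (hη : 0 ≤ η) {n : ℕ} {c : ℕ → ℝ}
    (hK : ∀ s ∈ Set.Icc ε (π - ε), |cos s / sin s| ≤ K)
    (h1 : ∀ s ∈ Set.Icc ε (π - ε), |∑ k ∈ range n, c k * s ^ k - cos s / sin s| ≤ η)
    (h2 : ∀ s ∈ Set.Icc ε (π - ε), ∀ t ∈ Set.Icc ε (π - ε),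
      |∑ k ∈ range n, c k * hd s t k - Dq s t| ≤ η)
    {θ : ι → ℝ} (hθ : ∀ a, θ a ∈ Set.Icc ε (π - ε)) (A A' : Matrix ι κ ℝ) :
    ϑ / 4 * dS n c (diagonal θ) (A * Aᵀ) (ϑ • (A * Aᵀ)) (A' * Aᵀ + A * A'ᵀ) ≤
      trace (A' * A'ᵀ) - ϑ ^ 2 / 4 * trace (A * Aᵀ * (A * Aᵀ) * (A * Aᵀ)) +
      ϑ ^ 2 / 4 * ((η * (2 * K + η) + η) * (Fintype.card ι) ^ 3 * trace (A * Aᵀ) ^ 3) := by
  set B := A * Aᵀ with hB
  have hs : ∀ a b, B a b = B b a := fun a b => by
    simp only [hB, Matrix.mul_apply, transpose_apply, mul_comm]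
  have hσ : ∀ a b, (θ a + θ b) / 2 ∈ Set.Icc ε (π - ε) := fun a b =>
    ⟨by linarith [(hθ a).1, (hθ b).1], by linarith [(hθ a).2, (hθ b).2]⟩
  rw [dS_diag n c θ ϑ _ hs]
  set p : ι → ι → ℝ := fun a b => ∑ k ∈ range n, c k * ((θ a + θ b) / 2) ^ k with hp
  have hps : ∀ a b, p a b = p b a := fun a b => by simp only [p, add_comm]
  set C : Matrix ι ι ℝ := Matrix.of fun a b => p a b * B a b with hC
  have hCs : Cᵀ = C := by ext a b; simp [hC, hps a b, hs a b]
  have e1 : ∑ a, ∑ b, p a b * B a b * ((A' * Aᵀ + A * A'ᵀ) a b + (A' * Aᵀ + A * A'ᵀ) b a) =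
      4 * ∑ a, ∑ i, A' a i * (C * A) a i := by
    have t1 : ∀ X : Matrix ι ι ℝ, ∑ a, ∑ b, p a b * B a b * X b a = trace (C * X) := fun X => by
      simp only [trace, Matrix.diag, Matrix.mul_apply, hC, of_apply]
    have t2 : ∀ X : Matrix ι ι ℝ, ∑ a, ∑ b, p a b * B a b * X a b = trace (C * Xᵀ) := fun X => by
      simp only [trace, Matrix.diag, Matrix.mul_apply, hC, of_apply, transpose_apply]
    have t3 : trace (C * (A * A'ᵀ)) = ∑ a, ∑ i, A' a i * (C * A) a i := by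
      rw [← Matrix.mul_assoc]
      simp only [trace, Matrix.diag, Matrix.mul_apply (M := C * A), transpose_apply, mul_comm]
    have t4 : trace (C * (A' * Aᵀ)) = trace (C * (A * A'ᵀ)) := by
      rw [← trace_transpose, transpose_mul, transpose_mul, transpose_transpose, hCs,
        trace_mul_comm]
    simp only [mul_add (p _ _ * B _ _), Finset.sum_add_distrib]
    rw [t1, t2]
    simp only [transpose_add, transpose_mul, transpose_transpose, Matrix.mul_add, trace_add, t4, t3]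
    ring
  have e2 : ϑ * ∑ a, ∑ i, A' a i * (C * A) a i ≤
      trace (A' * A'ᵀ) + ϑ ^ 2 / 4 * ∑ a, ∑ i, (C * A) a i * (C * A) a i := by
    simp only [trace, Matrix.diag, Matrix.mul_apply (M := A'), transpose_apply, Finset.mul_sum,
      ← Finset.sum_add_distrib]
    refine Finset.sum_le_sum fun a _ => Finset.sum_le_sum fun i _ => ?_
    nlinarith [sq_nonneg (A' a i - ϑ / 2 * (C * A) a i)]
  have e3 : ∑ a, ∑ i, (C * A) a i * (C * A) a i =
      ∑ a, ∑ b, ∑ d, p a d * p b d * (B a b * B b d * B d a) := by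
    have : ∑ a, ∑ i, (C * A) a i * (C * A) a i = trace (C * A * (C * A)ᵀ) := by
      simp only [trace, Matrix.diag, Matrix.mul_apply (M := C * A), transpose_apply]
    rw [this, transpose_mul, hCs, Matrix.mul_assoc, ← Matrix.mul_assoc A, ← hB, trace_mul_comm]
    simp only [trace, Matrix.diag, Matrix.mul_apply, hC, of_apply, Finset.sum_mul]
    refine Finset.sum_congr rfl fun a _ => ?_
    rw [Finset.sum_comm]
    refine Finset.sum_congr rfl fun b _ => Finset.sum_congr rfl fun d _ => ?_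
    rw [hps d a]; ring
  have e4 : trace (B * B * B) = ∑ a, ∑ b, ∑ d, B a b * B b d * B d a := by
    simp only [trace, Matrix.diag, Matrix.mul_apply (M := B * B), Matrix.mul_apply (M := B) (N := B),
      Finset.sum_mul]
    exact Finset.sum_congr rfl fun a _ => Finset.sum_comm
  have hc := cubic_nonpos (θ := θ) (fun a => ⟨by linarith [(hθ a).1], by linarith [(hθ a).2]⟩)
    (gram_PS A) hs
  have htr : 0 ≤ trace B := by
    simp only [hB, trace, Matrix.diag, Matrix.mul_apply, transpose_apply]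
    exact Finset.sum_nonneg fun a _ => Finset.sum_nonneg fun i _ => mul_self_nonneg _
  have e5 : ∑ a, ∑ b, ∑ d, (p a d * p b d + (∑ k ∈ range n, c k *
      hd ((θ a + θ d) / 2) ((θ b + θ d) / 2) k) + 1) * (B a b * B b d * B d a) ≤
      (η * (2 * K + η) + η) * (Fintype.card ι) ^ 3 * trace B ^ 3 := by
    have : (η * (2 * K + η) + η) * (Fintype.card ι) ^ 3 * trace B ^ 3 =
        ∑ _a : ι, ∑ _b : ι, ∑ _d : ι, (η * (2 * K + η) + η) * trace B ^ 3 := by
      simp only [Finset.sum_const, Finset.card_univ, nsmul_eq_mul]; ring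
    rw [this]
    refine le_trans ?_ (add_le_of_nonpos_right hc)
    simp only [← Finset.sum_add_distrib]
    refine Finset.sum_le_sum fun a _ => Finset.sum_le_sum fun b _ =>
      Finset.sum_le_sum fun d _ => ?_
    rw [← sub_le_iff_le_add, ← sub_mul]
    refine (le_abs_self _).trans ?_
    rw [abs_mul]
    have hK0 : 0 ≤ K := (abs_nonneg _).trans (hK _ (hθ a))
    refine mul_le_mul ?_ ?_ (abs_nonneg _) (by positivity)
    · have u1 := h1 _ (hσ a d)
      have u2 := h1 _ (hσ b d)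
      have u3 := h2 _ (hσ a d) _ (hσ b d)
      have u4 := hK _ (hσ a d)
      have u5 := hK _ (hσ b d)
      change |p a d - _| ≤ η at u1
      change |p b d - _| ≤ η at u2
      set x := cos ((θ a + θ d) / 2) / sin ((θ a + θ d) / 2)
      set y := cos ((θ b + θ d) / 2) / sin ((θ b + θ d) / 2)
      set z := ∑ k ∈ range n, c k * hd ((θ a + θ d) / 2) ((θ b + θ d) / 2) k
      set w := Dq ((θ a + θ d) / 2) ((θ b + θ d) / 2)
      have : p a d * p b d + z + 1 - (x * y + w + 1) =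
          (p a d - x) * y + x * (p b d - y) + (p a d - x) * (p b d - y) + (z - w) := by ring
      rw [this]
      refine (abs_add_le _ _).trans (add_le_add ((abs_add_le _ _).trans
        ((add_le_add (abs_add_le _ _) le_rfl).trans ?_)) u3)
      simp only [abs_mul]
      nlinarith [mul_le_mul u1 u5 (abs_nonneg _) hη, mul_le_mul u4 u2 (abs_nonneg _) hK0,
        mul_le_mul u1 u2 (abs_nonneg _) hη]
    · rw [abs_mul, abs_mul, pow_three']
      exact mul_le_mul (mul_le_mul (gram_abs_le A a b) (gram_abs_le A b d) (abs_nonneg _) htr)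
        (gram_abs_le A d a) (abs_nonneg _) (by positivity)
  simp only [add_mul, Finset.sum_add_distrib, one_mul] at e5
  rw [e1, e4]
  rw [e3] at e2
  nlinarith [mul_le_mul_of_nonneg_left e5 (by positivity : 0 ≤ ϑ ^ 2 / 4)]

lemma point {ε η K ϑ : ℝ} (hε : 0 < ε) (hη : 0 ≤ η) {n : ℕ} {c : ℕ → ℝ}
    (hK : ∀ s ∈ Set.Icc ε (π - ε), |cos s / sin s| ≤ K)
    (h1 : ∀ s ∈ Set.Icc ε (π - ε), |∑ k ∈ range n, c k * s ^ k - cos s / sin s| ≤ η)
    (h2 : ∀ s ∈ Set.Icc ε (π - ε), ∀ t ∈ Set.Icc ε (π - ε),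
      |∑ k ∈ range n, c k * hd s t k - Dq s t| ≤ η)
    {Θ : Matrix ι ι ℝ} (hΘ : Θ.IsHermitian)
    (hq : ∀ v : ι → ℝ, v ⬝ᵥ v = 1 → v ⬝ᵥ (Θ *ᵥ v) ∈ Set.Icc ε (π - ε)) (A A' : Matrix ι κ ℝ) :
    ϑ / 4 * dS n c Θ (A * Aᵀ) (ϑ • (A * Aᵀ)) (A' * Aᵀ + A * A'ᵀ) ≤
      trace (A' * A'ᵀ) - ϑ ^ 2 / 4 * trace (A * Aᵀ * (A * Aᵀ) * (A * Aᵀ)) +
      ϑ ^ 2 / 4 * ((η * (2 * K + η) + η) * (Fintype.card ι) ^ 3 * trace (A * Aᵀ) ^ 3) := by
  set U : Matrix ι ι ℝ := hΘ.eigenvectorUnitary.1 with hUdef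
  have hU : U * Uᵀ = 1 := by
    have := hΘ.eigenvectorUnitary.2.2
    simpa [star_eq_conjTranspose] using this
  have hU' : Uᵀ * U = 1 := by
    have := hΘ.eigenvectorUnitary.2.1
    simpa [star_eq_conjTranspose] using this
  have hdiag : Uᵀ * Θ * U = diagonal hΘ.eigenvalues := by
    have := hΘ.conjStarAlgAut_star_eigenvectorUnitary
    simpa [star_eq_conjTranspose] using this
  have hθ : ∀ a, hΘ.eigenvalues a ∈ Set.Icc ε (π - ε) := fun a => by
    have h := hq (fun i => U i a) (by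
      have := congrFun (congrFun hU' a) a
      simpa [Matrix.mul_apply, dotProduct] using this)
    have := congrFun (congrFun hdiag a) a
    rw [diagonal_apply_eq, Matrix.mul_assoc] at this
    rw [← this]
    simpa [Matrix.mul_apply, dotProduct, mulVec] using h
  have hg : ∀ X Y : Matrix ι κ ℝ, (Uᵀ * X) * (Uᵀ * Y)ᵀ = Uᵀ * (X * Yᵀ) * U := fun X Y => by
    simp only [transpose_mul, transpose_transpose, Matrix.mul_assoc]
  have := point_diag (ϑ := ϑ) hε hη hK h1 h2 hθ (Uᵀ * A) (Uᵀ * A')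
  simp only [hg, conj_mul hU, conj_trace hU] at this
  rw [← hdiag, ← Matrix.add_mul, ← Matrix.mul_add, ← Matrix.smul_mul, ← Matrix.mul_smul,
    conj_dS hU] at this
  exact this

end Vale.Agent.P371
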