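import Vale.Agent.P371.Young
import Vale.Agent.P371.Defs

open Real Finset Filter Topology MeasureTheory Matrix
open scoped ENNReal ComplexOrder

namespace Vale.Agent.P371

variable {m N : ℕ}

lemma IsH1.clm {ψ ψ' : ℝ → Fin m → ℂ} (h : IsH1 ψ ψ') (i : Fin m) (φ : ℂ →L[ℝ] ℝ) :
    H1 (fun x => φ (ψ x i)) (fun x => φ (ψ' x i)) := by
  refine ⟨φ.comp_memLp' (h i).1, φ.comp_memLp' (h i).2.1, fun a b => ?_⟩
  have : IntervalIntegrable (fun x => ψ' x i) volume a b := intervalIntegrable_iff.2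
    ((((h i).2.1.locallyIntegrable one_le_two).integrableOn_isCompact isCompact_uIcc).mono_set
      Set.uIoc_subset_uIcc)
  rw [φ.intervalIntegral_comp_comm this, ← (h i).2.2, map_sub]

lemma int_dot {f g : ℝ → Fin m → ℂ} (hf : ∀ i, MemLp (fun x => f x i) 2 volume)
    (hg : ∀ i, MemLp (fun x => g x i) 2 volume) : Integrable fun x => star (f x) ⬝ᵥ g x :=
  integrable_finsetSum _ fun i _ => (hf i).star.integrable_mul (hg i)

lemma int_sum_re {f : Fin N → ℝ → ℂ} (hf : ∀ j, Integrable (f j)) (c : Fin N → ℝ) :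
    ∫ x, ∑ j, c j * (f j x).re = ∑ j, c j * (∫ x, f j x).re := by
  have h : ∀ j, Integrable fun x => c j * (f j x).re := fun j => (hf j).re.const_mul _
  rw [integral_finsetSum _ fun j _ => h j]
  refine Finset.sum_congr rfl fun j _ => ?_
  rw [integral_const_mul]
  congr 1
  exact integral_re (hf j)

/-- masked matrix of conjugated functions -/
def Mk (e : Fin N → ℝ) (ψ : Fin N → ℝ → Fin m → ℂ) (x : ℝ) : Matrix (Fin N) (Fin m) ℂ :=
  Matrix.of fun j i => (e j : ℂ) * star (ψ j x i)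

lemma Mk_mul (e : Fin N → ℝ) (ψ : Fin N → ℝ → Fin m → ℂ) (x : ℝ) (j k : Fin N) :
    (Mk e ψ x * (Mk e ψ x)ᴴ) j k = (e j * e k : ℝ) * (star (ψ j x) ⬝ᵥ ψ k x) := by
  simp only [Mk, Matrix.mul_apply, of_apply, conjTranspose_apply, dotProduct, Finset.mul_sum,
    Pi.star_apply, star_mul', Complex.star_def, Complex.conj_ofReal, Complex.ofReal_mul,
    Complex.conj_conj]
  exact Finset.sum_congr rfl fun i _ => by ring

lemma Mk_W (e : Fin N → ℝ) (ψ : Fin N → ℝ → Fin m → ℂ) (x : ℝ) (W : Matrix (Fin m) (Fin m) ℂ)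
    (j : Fin N) :
    (Mk e ψ x * W * (Mk e ψ x)ᴴ) j j = (e j * e j : ℝ) * (star (ψ j x) ⬝ᵥ (W *ᵥ ψ j x)) := by
  simp only [Mk, Matrix.mul_apply, of_apply, conjTranspose_apply, dotProduct, Finset.mul_sum,
    Pi.star_apply, star_mul', Complex.star_def, Complex.conj_ofReal, Complex.ofReal_mul,
    Complex.conj_conj, mulVec, Finset.sum_mul]
  rw [Finset.sum_comm]
  exact Finset.sum_congr rfl fun i _ => Finset.sum_congr rfl fun k _ => by ring

lemma kinetic_complex {ψ ψ' : Fin N → ℝ → Fin m → ℂ} (h : ∀ j, IsH1 (ψ j) (ψ' j))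
    (hon : ∀ j k, ∫ x, star (ψ j x) ⬝ᵥ ψ k x = if j = k then 1 else 0)
    {e : Fin N → ℝ} (he : ∀ j, e j * e j ≤ 1) :
    Integrable (fun x => (trace (Mk e ψ x * (Mk e ψ x)ᴴ * (Mk e ψ x * (Mk e ψ x)ᴴ) *
      (Mk e ψ x * (Mk e ψ x)ᴴ))).re) ∧
    π ^ 2 / 4 * ∫ x, (trace (Mk e ψ x * (Mk e ψ x)ᴴ * (Mk e ψ x * (Mk e ψ x)ᴴ) *
      (Mk e ψ x * (Mk e ψ x)ᴴ))).re ≤ ∑ j, e j * e j * (∫ x, star (ψ' j x) ⬝ᵥ ψ' j x).re := by
  have hA : ∀ a i, H1 (fun x => RR (Mk e ψ x) a i) (fun x => RR (Mk e ψ' x) a i) := by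
    rintro (j | j) (i | i)
    · simpa [RR, Mk] using (h j).clm i (e j • Complex.reCLM)
    · simpa [RR, Mk] using (h j).clm i (e j • Complex.imCLM)
    · simpa [RR, Mk] using (h j).clm i (-e j • Complex.imCLM)
    · simpa [RR, Mk] using (h j).clm i (e j • Complex.reCLM)
  have hi : ∀ j k, Integrable fun x => star (ψ j x) ⬝ᵥ ψ k x := fun j k =>
    int_dot (fun i => (h j i).1) (fun i => (h k i).1)
  have hre : ∀ j k, ∫ x, (((e j * e k : ℝ) : ℂ) * (star (ψ j x) ⬝ᵥ ψ k x)).re =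
      if j = k then e j * e j else 0 := fun j k => by
    have := integral_re ((hi j k).const_mul ((e j * e k : ℝ) : ℂ))
    rw [integral_const_mul, hon] at this
    refine this.trans ?_
    split_ifs with hjk <;> simp [hjk]
  have him : ∀ j k, ∫ x, (((e j * e k : ℝ) : ℂ) * (star (ψ j x) ⬝ᵥ ψ k x)).im = 0 := fun j k => by
    have := integral_im ((hi j k).const_mul ((e j * e k : ℝ) : ℂ))
    rw [integral_const_mul, hon] at this
    refine this.trans ?_
    split_ifs with hjk <;> simp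
  have key := kinetic hA (d := Sum.elim (fun j => e j * e j) fun j => e j * e j)
    (by rintro (j | j) <;> exact he j) (by
      simp only [← RR_conjT, ← RR_mul]
      rintro (j | j) (k | k) <;>
        simp only [RR, fromBlocks_apply₁₁, fromBlocks_apply₁₂, fromBlocks_apply₂₁,
          fromBlocks_apply₂₂, map_apply, Mk_mul, Matrix.neg_apply, integral_neg, hre, him] <;>
        simp [diagonal_apply])
  have hBI : ∀ a b, IB fun x => (RR (Mk e ψ x) * (RR (Mk e ψ x))ᵀ) a b := fun a b =>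
    IB.sum univ fun i => (hA a i).ib (hA b i)
  have hC : Integrable fun x => trace (RR (Mk e ψ x) * (RR (Mk e ψ x))ᵀ *
      (RR (Mk e ψ x) * (RR (Mk e ψ x))ᵀ) * (RR (Mk e ψ x) * (RR (Mk e ψ x))ᵀ)) :=
    (IB.sum univ fun a => IB.sum univ fun b =>
      (IB.sum univ fun d => (hBI a d).mul (hBI d b)).mul (hBI b a)).1
  simp only [← RR_conjT, ← RR_mul, RR_trace, integral_const_mul] at key hC
  refine ⟨by simpa using hC.const_mul (1 / 2), ?_⟩
  have hi' : ∀ j, Integrable fun x => star (ψ' j x) ⬝ᵥ ψ' j x := fun j =>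
    int_dot (fun i => (h j i).2.1) (fun i => (h j i).2.1)
  have e1 : ∫ x, (trace (Mk e ψ' x * (Mk e ψ' x)ᴴ)).re =
      ∑ j, e j * e j * (∫ x, star (ψ' j x) ⬝ᵥ ψ' j x).re := by
    simp only [trace, Matrix.diag, Mk_mul, Complex.re_sum, Complex.re_ofReal_mul]
    exact int_sum_re hi' _
  linarith

/-- The integrand of the shifted inequality. -/
noncomputable def Fx (W : ℝ → Matrix (Fin m) (Fin m) ℂ) (ψ : Fin N → ℝ → Fin m → ℂ)
    (e : Fin N → ℝ) (t x : ℝ) : ℝ :=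
  (trace (Mk e ψ x * W x * (Mk e ψ x)ᴴ)).re - t * (trace (Mk e ψ x * (Mk e ψ x)ᴴ)).re -
    π ^ 2 / 4 * (trace (Mk e ψ x * (Mk e ψ x)ᴴ * (Mk e ψ x * (Mk e ψ x)ᴴ) *
      (Mk e ψ x * (Mk e ψ x)ᴴ))).re

lemma ofReal_int_le {f : ℝ → ℝ} (hf : Integrable f) :
    ENNReal.ofReal (∫ x, f x) ≤ ∫⁻ x, ENNReal.ofReal (f x) := by
  rw [integral_eq_lintegral_pos_part_sub_lintegral_neg_part hf]
  refine (ENNReal.ofReal_le_ofReal (sub_le_self _ ENNReal.toReal_nonneg)).trans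
    ENNReal.ofReal_toReal_le

lemma shifted {W : ℝ → Matrix (Fin m) (Fin m) ℂ} {lam : Fin N → ℝ}
    {ψ : Fin N → ℝ → Fin m → ℂ} (h : ∀ j, lam j < 0 ∧ IsEigen W (lam j) (ψ j))
    (hon : ∀ j k, ∫ x, star (ψ j x) ⬝ᵥ ψ k x = if j = k then 1 else 0)
    {e : Fin N → ℝ} (he : ∀ j, e j * e j ≤ 1) (t : ℝ) :
    ENNReal.ofReal (∑ j, e j * e j * (|lam j| - t)) ≤ ∫⁻ x, ENNReal.ofReal (Fx W ψ e t x) := by
  choose ψ' h1 h2 using fun j => (h j).2
  obtain ⟨hC, hK⟩ := kinetic_complex h1 hon he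
  have hi : ∀ j, Integrable fun x => star (ψ j x) ⬝ᵥ ψ j x := fun j =>
    int_dot (fun i => (h1 j i).1) (fun i => (h1 j i).1)
  have heq : ∀ j, (∫ x, star (ψ' j x) ⬝ᵥ ψ' j x) - (∫ x, star (ψ j x) ⬝ᵥ (W x *ᵥ ψ j x)) =
      lam j := fun j => by
    have := h2 j _ _ (h1 j)
    rwa [hon, if_pos rfl, mul_one] at this
  have hV : ∀ j, Integrable fun x => star (ψ j x) ⬝ᵥ (W x *ᵥ ψ j x) := fun j => by
    by_contra hn
    have := congrArg Complex.re (heq j)
    rw [integral_undef hn, sub_zero, Complex.ofReal_re] at this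
    have h0 : (0 : ℂ) ≤ ∫ x, star (ψ' j x) ⬝ᵥ ψ' j x :=
      integral_nonneg fun x => dotProduct_star_self_nonneg _
    have := (Complex.le_def.1 h0).1
    simp only [Complex.zero_re] at this
    linarith [(h j).1]
  have i1 : Integrable fun x => (trace (Mk e ψ x * W x * (Mk e ψ x)ᴴ)).re := by
    simp only [trace, Matrix.diag, Mk_W, Complex.re_sum, Complex.re_ofReal_mul]
    exact integrable_finsetSum _ fun j _ => (hV j).re.const_mul _
  have i2 : Integrable fun x => (trace (Mk e ψ x * (Mk e ψ x)ᴴ)).re := by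
    simp only [trace, Matrix.diag, Mk_mul, Complex.re_sum, Complex.re_ofReal_mul]
    exact integrable_finsetSum _ fun j _ => (hi j).re.const_mul _
  have e1 : ∫ x, (trace (Mk e ψ x * W x * (Mk e ψ x)ᴴ)).re =
      ∑ j, e j * e j * (∫ x, star (ψ j x) ⬝ᵥ (W x *ᵥ ψ j x)).re := by
    simp only [trace, Matrix.diag, Mk_W, Complex.re_sum, Complex.re_ofReal_mul]
    exact int_sum_re hV _
  have e2 : ∫ x, (trace (Mk e ψ x * (Mk e ψ x)ᴴ)).re = ∑ j, e j * e j := by
    simp only [trace, Matrix.diag, Mk_mul, Complex.re_sum, Complex.re_ofReal_mul]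
    rw [int_sum_re hi]
    simp [hon]
  have i3 : Integrable fun x => (trace (Mk e ψ x * W x * (Mk e ψ x)ᴴ)).re -
      t * (trace (Mk e ψ x * (Mk e ψ x)ᴴ)).re := i1.sub (i2.const_mul t)
  have i4 : Integrable (Fx W ψ e t) := i3.sub (hC.const_mul _)
  refine le_trans (ENNReal.ofReal_le_ofReal ?_) (ofReal_int_le i4)
  unfold Fx
  rw [integral_sub i3 (hC.const_mul _), integral_sub i1 (i2.const_mul t), integral_const_mul,
    integral_const_mul, e1, e2]
  have e3 : ∑ j, e j * e j * (|lam j| - t) =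
      ∑ j, e j * e j * (∫ x, star (ψ j x) ⬝ᵥ (W x *ᵥ ψ j x)).re - t * ∑ j, e j * e j -
      ∑ j, e j * e j * (∫ x, star (ψ' j x) ⬝ᵥ ψ' j x).re := by
    rw [Finset.mul_sum, ← Finset.sum_sub_distrib, ← Finset.sum_sub_distrib]
    refine Finset.sum_congr rfl fun j _ => ?_
    have := congrArg Complex.re (heq j)
    rw [Complex.sub_re, Complex.ofReal_re] at this
    rw [abs_of_neg (h j).1, ← this]; ring
  linarith

lemma Fx_le {W : ℝ → Matrix (Fin m) (Fin m) ℂ} (ψ : Fin N → ℝ → Fin m → ℂ)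
    (e : Fin N → ℝ) (t x : ℝ) (hW : (W x).IsHermitian) :
    Fx W ψ e t x ≤ L1 * ∑ i, (max (hW.eigenvalues i - t) 0) ^ (3 / 2 : ℝ) := by
  have := young_complex (Mk e ψ x) hW t
  unfold Fx; linarith

theorem upper_one (m : ℕ) : LT 1 m ≤ ENNReal.ofReal L1 := by
  refine iSup_le fun W => iSup_le fun hW => iSup_le fun _ => ENNReal.div_le_of_le_mul ?_
  refine iSup_le fun N => iSup_le fun lam => iSup_le fun ψ => iSup_le fun h => iSup_le fun hon => ?_
  have := shifted h hon (e := fun _ => 1) (fun _ => by simp) 0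
  simp only [mul_one, one_mul, sub_zero] at this
  simp only [Real.rpow_one]
  refine this.trans ?_
  rw [trPowInt, ← lintegral_const_mul' _ _ ENNReal.ofReal_ne_top]
  refine lintegral_mono fun x => ?_
  rw [← ENNReal.ofReal_mul L1_pos.le, trace_cfc (hW.2.1 x).1]
  refine ENNReal.ofReal_le_ofReal ((Fx_le ψ _ 0 x (hW.2.1 x).1).trans (le_of_eq ?_))
  congr 1
  refine Finset.sum_congr rfl fun i _ => ?_
  rw [sub_zero, max_eq_left ((hW.2.1 x).eigenvalues_nonneg i)]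
  norm_num

end Vale.Agent.P371
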