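import Vale.Agent.P371.Kin

open Real Finset Filter Topology MeasureTheory Matrix

namespace Vale.Agent.P371

noncomputable def L1 : ℝ := 4 / (3 * √3 * π)

lemma L1_pos : 0 < L1 := by unfold L1; positivity

lemma young_scalar (w : ℝ) {r : ℝ} (hr : 0 ≤ r) :
    w * r ≤ π ^ 2 / 4 * r ^ 3 + L1 * (max w 0) ^ (3 / 2 : ℝ) := by
  set u := max w 0
  have hu : 0 ≤ u := le_max_right _ _
  have h1 : w * r ≤ u * r := mul_le_mul_of_nonneg_right (le_max_left _ _) hr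
  refine h1.trans ?_
  have h3 : (0 : ℝ) < √3 := by positivity
  have h33 : √3 * √3 = (3 : ℝ) := Real.mul_self_sqrt (by norm_num)
  set s := √u with hs
  have hs0 : 0 ≤ s := Real.sqrt_nonneg _
  have hss : u = s ^ 2 := (Real.sq_sqrt hu).symm
  have e : u ^ (3 / 2 : ℝ) = s ^ 3 := by
    rw [hs, Real.sqrt_eq_rpow, ← Real.rpow_natCast, ← Real.rpow_mul hu]; norm_num
  rw [e, hss]
  set r0 := 2 * s / (√3 * π) with hr0
  have hr00 : 0 ≤ r0 := by positivity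
  have hsr : s = √3 * π * r0 / 2 := by rw [hr0]; field_simp
  have e1 : s ^ 2 = 3 * (π ^ 2 / 4) * r0 ^ 2 := by
    rw [hsr]; linear_combination (π ^ 2 / 4 * r0 ^ 2) * h33
  have e2 : L1 * s ^ 3 = 2 * (π ^ 2 / 4) * r0 ^ 3 := by
    rw [hsr, L1]; field_simp; linear_combination (4 * r0 ^ 3 * 4) * h33
  rw [e2, e1]
  have : 0 ≤ π ^ 2 / 4 * ((r - r0) ^ 2 * (r + 2 * r0)) := by positivity
  nlinarith

variable {ι κ : Type*} [Fintype ι] [Fintype κ]

lemma cube_diag (Φ : Matrix ι κ ℝ) (i : κ) :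
    (Φᵀ * Φ) i i ^ 3 ≤ (Φᵀ * Φ * (Φᵀ * Φ) * (Φᵀ * Φ)) i i := by
  set ρ := Φᵀ * Φ with hρ
  have hs : ρᵀ = ρ := by simp [hρ, transpose_mul]
  have hsym : ∀ a b, ρ a b = ρ b a := fun a b => by
    conv_lhs => rw [← hs]
    rfl
  have ha : ρ i i = ∑ j, Φ j i ^ 2 := by simp [hρ, Matrix.mul_apply, sq]
  have hb : (ρ * ρ) i i = ∑ j, Φ j i * (Φ * ρ) j i := by
    conv_lhs => rw [hρ, Matrix.mul_assoc, ← hρ]
    simp [Matrix.mul_apply (M := Φᵀ)]
  have hc : (ρ * ρ * ρ) i i = ∑ j, (Φ * ρ) j i ^ 2 := by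
    have : ρ * ρ * ρ = (Φ * ρ)ᵀ * (Φ * ρ) := by
      rw [transpose_mul, hs]
      conv_lhs => rw [Matrix.mul_assoc]; enter [2, 1]; rw [hρ]
      simp only [Matrix.mul_assoc]
    rw [this]; simp only [Matrix.mul_apply (M := (Φ * ρ)ᵀ), sq, transpose_apply]
  have h1 : ρ i i ^ 2 ≤ (ρ * ρ) i i := by
    rw [Matrix.mul_apply, sq]
    exact Finset.single_le_sum (f := fun k => ρ i k * ρ k i)
      (fun k _ => by rw [hsym k i]; exact mul_self_nonneg _) (Finset.mem_univ i)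
  have h2 : (ρ * ρ) i i ^ 2 ≤ ρ i i * (ρ * ρ * ρ) i i := by
    rw [hb, hc, ha]; exact Finset.sum_mul_sq_le_sq_mul_sq _ _ _
  have ha0 : 0 ≤ ρ i i := by rw [ha]; positivity
  have hc0 : 0 ≤ (ρ * ρ * ρ) i i := by rw [hc]; positivity
  rcases ha0.eq_or_lt with h0 | h0
  · rw [← h0]; simpa using hc0
  · have : (ρ i i ^ 2) ^ 2 ≤ (ρ * ρ) i i ^ 2 := pow_le_pow_left₀ (by positivity) h1 2
    refine le_of_mul_le_mul_left ?_ h0
    nlinarith

lemma young_real [DecidableEq κ] (Φ : Matrix ι κ ℝ) (w : κ → ℝ) :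
    trace (Φ * diagonal w * Φᵀ) ≤ π ^ 2 / 4 * trace (Φ * Φᵀ * (Φ * Φᵀ) * (Φ * Φᵀ)) +
      L1 * ∑ i, (max (w i) 0) ^ (3 / 2 : ℝ) := by
  have e1 : trace (Φ * diagonal w * Φᵀ) = ∑ i, w i * (Φᵀ * Φ) i i := by
    rw [trace_mul_comm, ← Matrix.mul_assoc]
    simp only [trace, Matrix.diag, mul_diagonal, mul_comm]
  have e2 : trace (Φ * Φᵀ * (Φ * Φᵀ) * (Φ * Φᵀ)) =
      ∑ i, (Φᵀ * Φ * (Φᵀ * Φ) * (Φᵀ * Φ)) i i := by
    rw [← Matrix.mul_assoc, trace_mul_comm]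
    simp only [Matrix.mul_assoc, trace, Matrix.diag]
  rw [e1, e2, Finset.mul_sum, Finset.mul_sum, ← Finset.sum_add_distrib]
  refine Finset.sum_le_sum fun i _ => ?_
  have h0 : 0 ≤ (Φᵀ * Φ) i i := by
    simp only [Matrix.mul_apply, transpose_apply]
    exact Finset.sum_nonneg fun j _ => mul_self_nonneg _
  have := mul_le_mul_of_nonneg_left (cube_diag Φ i) (by positivity : 0 ≤ π ^ 2 / 4)
  linarith [young_scalar (w i) h0]

/-- realification of a complex matrix -/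
def RR {n k : Type*} (M : Matrix n k ℂ) : Matrix (n ⊕ n) (k ⊕ k) ℝ :=
  fromBlocks (M.map Complex.re) (-M.map Complex.im) (M.map Complex.im) (M.map Complex.re)

omit [Fintype ι] in
lemma RR_mul {μ : Type*} (M : Matrix ι κ ℂ) (N : Matrix κ μ ℂ) : RR (M * N) = RR M * RR N := by
  ext (a | a) (b | b) <;>
    simp [RR, Matrix.mul_apply, Fintype.sum_sum_type, Finset.sum_add_distrib, sub_eq_add_neg,
      add_comm]

omit [Fintype ι] [Fintype κ] in
lemma RR_conjT (M : Matrix ι κ ℂ) : RR Mᴴ = (RR M)ᵀ := by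
  ext (a | a) (b | b) <;> simp [RR]

lemma RR_trace (M : Matrix ι ι ℂ) : trace (RR M) = 2 * (trace M).re := by
  simp [RR, trace, Fintype.sum_sum_type, two_mul]

omit [Fintype ι] in
lemma RR_diag [DecidableEq ι] (w : ι → ℝ) :
    RR (diagonal fun i => (w i : ℂ)) = diagonal (Sum.elim w w) := by
  ext (a | a) (b | b) <;> simp [RR, diagonal_apply]

lemma young_complex [DecidableEq κ] (Ψ : Matrix ι κ ℂ) {W : Matrix κ κ ℂ} (hW : W.IsHermitian)
    (t : ℝ) : (trace (Ψ * W * Ψᴴ)).re - t * (trace (Ψ * Ψᴴ)).re ≤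
      π ^ 2 / 4 * (trace (Ψ * Ψᴴ * (Ψ * Ψᴴ) * (Ψ * Ψᴴ))).re +
      L1 * ∑ i, (max (hW.eigenvalues i - t) 0) ^ (3 / 2 : ℝ) := by
  set U : Matrix κ κ ℂ := hW.eigenvectorUnitary.1 with hUdef
  have hU : U * Uᴴ = 1 := hW.eigenvectorUnitary.2.2
  have hd : W = U * diagonal (fun i => (hW.eigenvalues i : ℂ)) * Uᴴ := hW.spectral_theorem
  have e1 : Ψ * U * (Ψ * U)ᴴ = Ψ * Ψᴴ := by
    rw [conjTranspose_mul, Matrix.mul_assoc, ← Matrix.mul_assoc U, hU, Matrix.one_mul]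
  have e2 : Ψ * U * diagonal (fun i => ((hW.eigenvalues i - t : ℝ) : ℂ)) * (Ψ * U)ᴴ =
      Ψ * W * Ψᴴ - (t : ℂ) • (Ψ * Ψᴴ) := by
    have : diagonal (fun i => ((hW.eigenvalues i - t : ℝ) : ℂ)) =
        diagonal (fun i => (hW.eigenvalues i : ℂ)) - (t : ℂ) • 1 := by
      ext a b; by_cases h : a = b <;> simp [h]
    rw [this, Matrix.mul_sub, Matrix.sub_mul, Matrix.mul_smul, Matrix.mul_one, Matrix.smul_mul, e1]
    conv_rhs => rw [hd]
    simp only [conjTranspose_mul, Matrix.mul_assoc]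
  have := young_real (RR (Ψ * U)) (Sum.elim (fun i => hW.eigenvalues i - t)
    (fun i => hW.eigenvalues i - t))
  rw [← RR_diag, ← RR_conjT] at this
  simp only [← RR_mul, RR_trace, e1, e2, Fintype.sum_sum_type, Sum.elim_inl, Sum.elim_inr,
    trace_sub, trace_smul, smul_eq_mul, Complex.sub_re, Complex.re_ofReal_mul] at this
  linarith

lemma trace_cfc [DecidableEq κ] {W : Matrix κ κ ℂ} (hW : W.IsHermitian) (f : ℝ → ℝ) :
    (trace (cfc f W)).re = ∑ i, f (hW.eigenvalues i) := by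
  set U : Matrix κ κ ℂ := hW.eigenvectorUnitary.1 with hUdef
  have hU : Uᴴ * U = 1 := hW.eigenvectorUnitary.2.1
  have : cfc f W = U * diagonal (fun i => (f (hW.eigenvalues i) : ℂ)) * Uᴴ := hW.cfc_eq f
  rw [this, trace_mul_comm, ← Matrix.mul_assoc, hU, Matrix.one_mul, trace_diagonal]
  simp

end Vale.Agent.P371
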